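import Vale.Agent.P092.H160.StDefs
import Vale.Agent.P092.H885.KDefs

/-!
Definitions for the counterexample to the general form (all ICC property (T) groups) of Connes'
rigidity question.

* `Sp n` is the integral symplectic group `Sp_{2n}(ℤ)` (Mathlib's `Matrix.symplecticGroup`).
* `Gam n` is the semidirect product `ℤ^{2n} ⋊ Sp_{2n}(ℤ)`.
* `Lam n` is the subgroup of `Gam n` of the pairs `(u, g)` with
  `ω(u, m) ≡ q(m) + q(g⁻¹ m)  (mod 2)` for all `m ∈ ℤ^{2n}`,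
  where `ω` is the standard symplectic form and `q(x, y) = ∑ x_i y_i`.
-/

namespace Vale.Agent.P092.R2.H559

open Matrix

/-- The lattice `ℤ^{2n}`, with coordinates indexed by `Fin n ⊕ Fin n`. -/
abbrev Lat (n : ℕ) : Type := Fin n ⊕ Fin n → ℤ

/-- The integral symplectic group `Sp_{2n}(ℤ)`. -/
abbrev Sp (n : ℕ) : Type := symplecticGroup (Fin n) ℤ

/-- The standard action of `Sp_{2n}(ℤ)` on `ℤ^{2n}` (written multiplicatively). -/
def act (n : ℕ) : Sp n →* MulAut (Multiplicative (Lat n)) where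
  toFun g := AddEquiv.toMultiplicative
    { toFun := fun m => (g : Matrix (Fin n ⊕ Fin n) (Fin n ⊕ Fin n) ℤ) *ᵥ m
      invFun := fun m => ((g⁻¹ : Sp n) : Matrix (Fin n ⊕ Fin n) (Fin n ⊕ Fin n) ℤ) *ᵥ m
      left_inv := fun m => by
        beta_reduce
        rw [mulVec_mulVec, ← Submonoid.coe_mul, inv_mul_cancel, Submonoid.coe_one, one_mulVec]
      right_inv := fun m => by
        beta_reduce
        rw [mulVec_mulVec, ← Submonoid.coe_mul, mul_inv_cancel, Submonoid.coe_one, one_mulVec]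
      map_add' := fun a b => mulVec_add _ a b }
  map_one' := MulEquiv.ext fun m => by
    change ((1 : Sp n) : Matrix (Fin n ⊕ Fin n) (Fin n ⊕ Fin n) ℤ) *ᵥ (Multiplicative.toAdd m) =
      Multiplicative.toAdd m
    rw [Submonoid.coe_one, one_mulVec]
  map_mul' g h := MulEquiv.ext fun m => by
    change ((g * h : Sp n) : Matrix (Fin n ⊕ Fin n) (Fin n ⊕ Fin n) ℤ) *ᵥ
      (Multiplicative.toAdd m) = (g : Matrix (Fin n ⊕ Fin n) (Fin n ⊕ Fin n) ℤ) *ᵥ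
      ((h : Matrix (Fin n ⊕ Fin n) (Fin n ⊕ Fin n) ℤ) *ᵥ (Multiplicative.toAdd m))
    rw [Submonoid.coe_mul, mulVec_mulVec]

/-- The semidirect product `ℤ^{2n} ⋊ Sp_{2n}(ℤ)`. -/
abbrev Gam (n : ℕ) : Type := Multiplicative (Lat n) ⋊[act n] Sp n

/-- The standard symplectic form on `ℤ^{2n}`. -/
def om {n : ℕ} (u m : Lat n) : ℤ :=
  ∑ i : Fin n, (u (Sum.inl i) * m (Sum.inr i) - u (Sum.inr i) * m (Sum.inl i))

/-- The quadratic form `q(x, y) = ∑ x_i y_i` on `ℤ^{2n}`. -/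
def qf {n : ℕ} (m : Lat n) : ℤ := ∑ i : Fin n, m (Sum.inl i) * m (Sum.inr i)

/-- The condition `ω(u, m) ≡ q(m) + q(g⁻¹ m) (mod 2)` for all `m`. -/
def Tw {n : ℕ} (u : Lat n) (g : Sp n) : Prop :=
  ∀ m : Lat n, Even (om u m + qf m +
    qf (((g⁻¹ : Sp n) : Matrix (Fin n ⊕ Fin n) (Fin n ⊕ Fin n) ℤ) *ᵥ m))

end Vale.Agent.P092.R2.H559

namespace Vale.Agent.P092.R2.H559

open Matrix

/-- The matrix of an element of `Sp_{2n}(ℤ)`. -/
abbrev mt {n : ℕ} (g : Sp n) : Matrix (Fin n ⊕ Fin n) (Fin n ⊕ Fin n) ℤ := g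

theorem mt_mul {n : ℕ} (g h : Sp n) : mt (g * h) = mt g * mt h := rfl

theorem mt_mulVec {n : ℕ} (g h : Sp n) (m : Lat n) : mt (g * h) *ᵥ m = mt g *ᵥ (mt h *ᵥ m) := by
  rw [mt_mul, mulVec_mulVec]

theorem mt_one {n : ℕ} (m : Lat n) : mt (1 : Sp n) *ᵥ m = m := by
  change (1 : Matrix (Fin n ⊕ Fin n) (Fin n ⊕ Fin n) ℤ) *ᵥ m = m
  rw [one_mulVec]

theorem mt_inv_mulVec {n : ℕ} (g : Sp n) (m : Lat n) : mt g⁻¹ *ᵥ (mt g *ᵥ m) = m := by
  rw [← mt_mulVec, inv_mul_cancel, mt_one]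

theorem mt_mulVec_inv {n : ℕ} (g : Sp n) (m : Lat n) : mt g *ᵥ (mt g⁻¹ *ᵥ m) = m := by
  rw [← mt_mulVec, mul_inv_cancel, mt_one]

theorem act_apply {n : ℕ} (g : Sp n) (m : Lat n) :
    act n g (Multiplicative.ofAdd m) = Multiplicative.ofAdd (mt g *ᵥ m) := rfl

theorem toAdd_act {n : ℕ} (g : Sp n) (m : Multiplicative (Lat n)) :
    Multiplicative.toAdd (act n g m) = mt g *ᵥ Multiplicative.toAdd m := rfl

theorem om_eq {n : ℕ} (u m : Lat n) : om u m = -(u ⬝ᵥ (J (Fin n) ℤ *ᵥ m)) := by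
  have h1 : J (Fin n) ℤ *ᵥ m = Sum.elim (-(m ∘ Sum.inr)) (m ∘ Sum.inl) := by
    rw [J, fromBlocks_mulVec, neg_mulVec, one_mulVec, one_mulVec, zero_mulVec, zero_mulVec,
      zero_add, add_zero]
  rw [h1]
  simp only [om, dotProduct, Fintype.sum_sum_type, Sum.elim_inl, Sum.elim_inr,
    Pi.neg_apply, Function.comp_apply, Finset.sum_sub_distrib, mul_neg, Finset.sum_neg_distrib]
  ring

theorem om_act {n : ℕ} (g : Sp n) (u m : Lat n) : om (mt g *ᵥ u) (mt g *ᵥ m) = om u m := by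
  have h : (mt g)ᵀ * J (Fin n) ℤ * mt g = J (Fin n) ℤ := SymplecticGroup.mem_iff'.mp g.2
  have h1 : (mt g *ᵥ u) ⬝ᵥ (J (Fin n) ℤ *ᵥ (mt g *ᵥ m)) =
      u ⬝ᵥ (((mt g)ᵀ * J (Fin n) ℤ * mt g) *ᵥ m) := by
    rw [← mulVec_mulVec, ← mulVec_mulVec, dotProduct_mulVec u, vecMul_transpose]
  rw [om_eq, om_eq, h1, h]

theorem om_add_left {n : ℕ} (u v m : Lat n) : om (u + v) m = om u m + om v m := by
  simp only [om, Pi.add_apply, ← Finset.sum_add_distrib]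
  exact Finset.sum_congr rfl fun i _ => by ring

theorem om_neg_left {n : ℕ} (u m : Lat n) : om (-u) m = -om u m := by
  simp only [om, Pi.neg_apply, ← Finset.sum_neg_distrib]
  exact Finset.sum_congr rfl fun i _ => by ring

theorem om_zero_left {n : ℕ} (m : Lat n) : om (0 : Lat n) m = 0 := by
  simp [om]

theorem om_swap {n : ℕ} (u m : Lat n) : om u m = -om m u := by
  simp only [om, ← Finset.sum_neg_distrib]
  exact Finset.sum_congr rfl fun i _ => by ring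

theorem om_add_right {n : ℕ} (u m m' : Lat n) : om u (m + m') = om u m + om u m' := by
  rw [om_swap, om_add_left, om_swap m, om_swap m']; ring

theorem om_act_left {n : ℕ} (g : Sp n) (u m : Lat n) : om (mt g *ᵥ u) m = om u (mt g⁻¹ *ᵥ m) := by
  conv_lhs => rw [← mt_mulVec_inv g m]
  exact om_act g u _

/-- `q(m + m') = q(m) + q(m') + ω(m, m') (mod 2)`. -/
theorem qf_add {n : ℕ} (m m' : Lat n) :
    qf (m + m') = qf m + qf m' + om m m' + 2 * ∑ i, m (Sum.inr i) * m' (Sum.inl i) := by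
  simp only [qf, om, Pi.add_apply, Finset.mul_sum, ← Finset.sum_add_distrib]
  exact Finset.sum_congr rfl fun i _ => by ring

theorem Tw.mul {n : ℕ} {u v : Lat n} {g h : Sp n} (hu : Tw u g) (hv : Tw v h) :
    Tw (u + mt g *ᵥ v) (g * h) := by
  intro m
  have h1 := hu m
  have h2 := hv (mt g⁻¹ *ᵥ m)
  rw [om_add_left, om_act_left]
  have e : ((((g * h)⁻¹ : Sp n)) : Matrix (Fin n ⊕ Fin n) (Fin n ⊕ Fin n) ℤ) *ᵥ m =
      mt h⁻¹ *ᵥ (mt g⁻¹ *ᵥ m) := by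
    rw [← mt_mulVec, _root_.mul_inv_rev]
  rw [e]
  have h3 : om u m + om v (mt g⁻¹ *ᵥ m) + qf m + qf (mt h⁻¹ *ᵥ (mt g⁻¹ *ᵥ m)) =
      (om u m + qf m + qf (mt g⁻¹ *ᵥ m)) +
      (om v (mt g⁻¹ *ᵥ m) + qf (mt g⁻¹ *ᵥ m) + qf (mt h⁻¹ *ᵥ (mt g⁻¹ *ᵥ m))) -
        2 * qf (mt g⁻¹ *ᵥ m) := by ring
  rw [h3]
  exact (h1.add h2).sub (even_two_mul _)

theorem Tw.one {n : ℕ} : Tw (0 : Lat n) (1 : Sp n) := by
  intro m
  rw [om_zero_left, inv_one]
  change Even (0 + qf m + qf (mt (1 : Sp n) *ᵥ m))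
  rw [mt_one, zero_add]
  exact ⟨_, rfl⟩

theorem Tw.inv {n : ℕ} {u : Lat n} {g : Sp n} (hu : Tw u g) : Tw (-(mt g⁻¹ *ᵥ u)) g⁻¹ := by
  intro m
  have h1 := hu (mt g *ᵥ m)
  rw [om_neg_left, om_act_left, inv_inv]
  change Even (-om u (mt g *ᵥ m) + qf m + qf (mt g *ᵥ m))
  have e : qf (((g⁻¹ : Sp n) : Matrix (Fin n ⊕ Fin n) (Fin n ⊕ Fin n) ℤ) *ᵥ (mt g *ᵥ m)) = qf m := by
    rw [mt_inv_mulVec]
  rw [e] at h1
  have h3 : -om u (mt g *ᵥ m) + qf m + qf (mt g *ᵥ m) =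
      (om u (mt g *ᵥ m) + qf (mt g *ᵥ m) + qf m) - 2 * om u (mt g *ᵥ m) := by ring
  rw [h3]
  exact h1.sub (even_two_mul _)

/-- The subgroup `Λ` of `ℤ^{2n} ⋊ Sp_{2n}(ℤ)` of the pairs `(u, g)` with
`ω(u, m) ≡ q(m) + q(g⁻¹ m) (mod 2)` for all `m ∈ ℤ^{2n}`. -/
def Lam (n : ℕ) : Subgroup (Gam n) where
  carrier := {x | Tw (Multiplicative.toAdd x.left) x.right}
  mul_mem' := fun ha hb => ha.mul hb
  one_mem' := Tw.one
  inv_mem' := fun {x} hx => by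
    have h := Tw.inv hx
    have e : Multiplicative.toAdd (x⁻¹).left =
        -(mt x.right⁻¹ *ᵥ Multiplicative.toAdd x.left) := by
      change mt x.right⁻¹ *ᵥ (-(Multiplicative.toAdd x.left)) = _
      rw [mulVec_neg]
    change Tw (Multiplicative.toAdd (x⁻¹).left) x.right⁻¹
    rw [e]
    exact h

theorem mem_Lam {n : ℕ} {x : Gam n} : x ∈ Lam n ↔ Tw (Multiplicative.toAdd x.left) x.right :=
  Iff.rfl

end Vale.Agent.P092.R2.H559
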