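import Vale.Agent.P092.H160.Rep
import Vale.Agent.P092.H160.Bridge

/-!
Weighted composition operators on `L²(K)` and block operators on `ℓ²(S; L²(K))`.
-/

open scoped InnerProductSpace
open MeasureTheory

namespace Vale.Agent.P092.R2.H559

section block

variable {S F : Type} [NormedAddCommGroup F] [InnerProductSpace ℂ F]

/-- `ℓ²(S; F)` -/
abbrev L2s (S F : Type) [NormedAddCommGroup F] [InnerProductSpace ℂ F] : Type :=
  lp (fun _ : S => F) 2

theorem memlp_blk (e : Equiv.Perm S) (V : S → F →ₗᵢ[ℂ] F) (ξ : L2s S F) :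
    Memℓp (fun s => V s (ξ (e s))) 2 := by
  have h := lp.memℓp ξ
  rw [memℓp_gen_iff (by norm_num)] at h ⊢
  simp only [LinearIsometry.norm_map]
  exact (Equiv.summable_iff e).mpr h

/-- The block operator `(blk e V ξ)(s) = V_s (ξ(e s))`. -/
noncomputable def blk (e : Equiv.Perm S) (V : S → F →ₗᵢ[ℂ] F) : L2s S F →ₗᵢ[ℂ] L2s S F where
  toFun ξ := ⟨fun s => V s (ξ (e s)), memlp_blk e V ξ⟩
  map_add' ξ η := by
    apply lp.ext
    funext s
    exact map_add (V s) _ _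
  map_smul' c ξ := by
    apply lp.ext
    funext s
    exact map_smul (V s) c _
  norm_map' ξ := by
    change ‖(⟨fun s => V s (ξ (e s)), memlp_blk e V ξ⟩ : L2s S F)‖ = ‖ξ‖
    rw [lp.norm_eq_tsum_rpow (by norm_num), lp.norm_eq_tsum_rpow (by norm_num)]
    congr 1
    simp only [LinearIsometry.norm_map]
    exact Equiv.tsum_eq e (fun s => ‖ξ s‖ ^ (ENNReal.toReal 2))

@[simp] theorem blk_apply (e : Equiv.Perm S) (V : S → F →ₗᵢ[ℂ] F) (ξ : L2s S F) (s : S) :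
    blk e V ξ s = V s (ξ (e s)) := rfl

theorem blk_comm {e f : Equiv.Perm S} {V W : S → F →ₗᵢ[ℂ] F} (hef : ∀ s, f (e s) = e (f s))
    (h : ∀ s x, V s (W (e s) x) = W s (V (f s) x)) (ξ : L2s S F) :
    blk e V (blk f W ξ) = blk f W (blk e V ξ) := by
  apply lp.ext
  funext s
  rw [blk_apply, blk_apply, blk_apply, blk_apply, h, hef]

end block

section mop

variable {K : Type} [MeasurableSpace K] {μ : Measure K}

theorem memLp_mop {φ : K → ℂ} (hφ : Measurable φ) (h1 : ∀ x, ‖φ x‖ = 1) {e : K → K}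
    (he : MeasurePreserving e μ μ) (f : Lp ℂ 2 μ) : MemLp (fun x => φ x * f (e x)) 2 μ := by
  have h := (Lp.memLp f).comp_measurePreserving he
  refine h.congr_norm (hφ.aestronglyMeasurable.mul h.1) (Filter.Eventually.of_forall fun x => ?_)
  simp only [Function.comp_apply, norm_mul, h1, one_mul]

/-- The weighted composition operator `f ↦ φ · (f ∘ e)`. -/
noncomputable def mop (φ : K → ℂ) (hφ : Measurable φ) (h1 : ∀ x, ‖φ x‖ = 1) (e : K → K)
    (he : MeasurePreserving e μ μ) : Lp ℂ 2 μ →ₗᵢ[ℂ] Lp ℂ 2 μ where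
  toFun f := (memLp_mop hφ h1 he f).toLp _
  map_add' f g := by
    apply Lp.ext
    refine (MemLp.coeFn_toLp _).trans ?_
    refine Filter.EventuallyEq.symm ?_
    refine (Lp.coeFn_add _ _).trans ?_
    filter_upwards [MemLp.coeFn_toLp (memLp_mop hφ h1 he f),
      MemLp.coeFn_toLp (memLp_mop hφ h1 he g),
      he.quasiMeasurePreserving.ae_eq_comp (Lp.coeFn_add f g)] with x hx hy hz
    simp only [Function.comp_apply, Pi.add_apply] at hz ⊢
    rw [hx, hy, hz]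
    ring
  map_smul' c f := by
    apply Lp.ext
    refine (MemLp.coeFn_toLp _).trans ?_
    refine Filter.EventuallyEq.symm ?_
    refine (Lp.coeFn_smul _ _).trans ?_
    filter_upwards [MemLp.coeFn_toLp (memLp_mop hφ h1 he f),
      he.quasiMeasurePreserving.ae_eq_comp (Lp.coeFn_smul c f)] with x hx hy
    simp only [Function.comp_apply, Pi.smul_apply, smul_eq_mul, RingHom.id_apply] at hx hy ⊢
    rw [hx, hy]
    ring
  norm_map' f := by
    change ‖(memLp_mop hφ h1 he f).toLp _‖ = ‖f‖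
    rw [Lp.norm_toLp, Lp.norm_def]
    congr 1
    rw [← eLpNorm_comp_measurePreserving (Lp.aestronglyMeasurable f) he]
    refine eLpNorm_congr_norm_ae (Filter.Eventually.of_forall fun x => ?_)
    simp only [Function.comp_apply, norm_mul, h1, one_mul]

theorem mop_coe {φ : K → ℂ} (hφ : Measurable φ) (h1 : ∀ x, ‖φ x‖ = 1) {e : K → K}
    (he : MeasurePreserving e μ μ) (f : Lp ℂ 2 μ) :
    mop φ hφ h1 e he f =ᵐ[μ] fun x => φ x * f (e x) := MemLp.coeFn_toLp (memLp_mop hφ h1 he f)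

/-- Composition of weighted composition operators. -/
theorem mop_mop_coe {φ ψ : K → ℂ} (hφ : Measurable φ) (h1 : ∀ x, ‖φ x‖ = 1) {e : K → K}
    (he : MeasurePreserving e μ μ) (hψ : Measurable ψ) (h2 : ∀ x, ‖ψ x‖ = 1) {f : K → K}
    (hf : MeasurePreserving f μ μ) (g : Lp ℂ 2 μ) :
    mop φ hφ h1 e he (mop ψ hψ h2 f hf g) =ᵐ[μ] fun x => φ x * (ψ (e x) * g (f (e x))) := by
  filter_upwards [mop_coe hφ h1 he (mop ψ hψ h2 f hf g),
    he.quasiMeasurePreserving.ae_eq_comp (mop_coe hψ h2 hf g)] with x hx hy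
  simp only [Function.comp_apply] at hy
  rw [hx, hy]

theorem mop_mop_eq {φ ψ φ' ψ' : K → ℂ} (hφ : Measurable φ) (h1 : ∀ x, ‖φ x‖ = 1) {e : K → K}
    (he : MeasurePreserving e μ μ) (hψ : Measurable ψ) (h2 : ∀ x, ‖ψ x‖ = 1) {f : K → K}
    (hf : MeasurePreserving f μ μ)
    (hφ' : Measurable φ') (h1' : ∀ x, ‖φ' x‖ = 1) {e' : K → K}
    (he' : MeasurePreserving e' μ μ) (hψ' : Measurable ψ') (h2' : ∀ x, ‖ψ' x‖ = 1) {f' : K → K}
    (hf' : MeasurePreserving f' μ μ)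
    (h3 : ∀ x, φ x * ψ (e x) = φ' x * ψ' (e' x)) (h4 : ∀ x, f (e x) = f' (e' x)) (g : Lp ℂ 2 μ) :
    mop φ hφ h1 e he (mop ψ hψ h2 f hf g) = mop φ' hφ' h1' e' he' (mop ψ' hψ' h2' f' hf' g) := by
  apply Lp.ext
  refine (mop_mop_coe hφ h1 he hψ h2 hf g).trans ((mop_mop_coe hφ' h1' he' hψ' h2' hf' g).trans ?_).symm
  exact Filter.Eventually.of_forall fun x => by
    beta_reduce
    rw [← mul_assoc, ← mul_assoc, h3, h4]

/-- A unimodular measurable function as a vector of `L²(K)`. -/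
noncomputable def uv [IsFiniteMeasure μ] (φ : K → ℂ) (hφ : Measurable φ) (h1 : ∀ x, ‖φ x‖ = 1) :
    Lp ℂ 2 μ :=
  (MemLp.of_bound hφ.aestronglyMeasurable 1
    (Filter.Eventually.of_forall fun x => (h1 x).le)).toLp φ

theorem uv_coe [IsFiniteMeasure μ] {φ : K → ℂ} (hφ : Measurable φ) (h1 : ∀ x, ‖φ x‖ = 1) :
    (uv φ hφ h1 : Lp ℂ 2 μ) =ᵐ[μ] φ := MemLp.coeFn_toLp _

theorem mop_uv [IsFiniteMeasure μ] {φ ψ χ : K → ℂ} (hφ : Measurable φ) (h1 : ∀ x, ‖φ x‖ = 1)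
    {e : K → K} (he : MeasurePreserving e μ μ) (hψ : Measurable ψ) (h2 : ∀ x, ‖ψ x‖ = 1)
    (hχ : Measurable χ) (h3 : ∀ x, ‖χ x‖ = 1) (h : ∀ x, φ x * ψ (e x) = χ x) :
    mop φ hφ h1 e he (uv ψ hψ h2 : Lp ℂ 2 μ) = uv χ hχ h3 := by
  apply Lp.ext
  filter_upwards [mop_coe hφ h1 he (uv ψ hψ h2 : Lp ℂ 2 μ), uv_coe (μ := μ) hχ h3,
    he.quasiMeasurePreserving.ae_eq_comp (uv_coe (μ := μ) hψ h2)] with x hx hy hz
  simp only [Function.comp_apply] at hz
  rw [hx, hy, hz, h]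

end mop

end Vale.Agent.P092.R2.H559
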