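import Vale.Agent.P092.R2.H559.Tor

/-!
Every element of `Sp_{2n}(ℤ)` lifts to `Lam n`.
-/

namespace Vale.Agent.P092.R2.H559

open Matrix

/-- For every `g` the function `q + q ∘ g⁻¹` is linear modulo 2, hence of the form `ω(u, ·)`. -/
theorem exists_Tw {n : ℕ} (g : Sp n) : ∃ u : Lat n, Tw u g := by
  let c : Lat n := fun j => qf (Pi.single j 1 : Lat n) + qf (mt g⁻¹ *ᵥ (Pi.single j 1 : Lat n))
  let u : Lat n := -rot c
  have hu : ∀ j, rot u j = c j := by
    intro j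
    change rot (-rot c) j = c j
    rw [rot_neg, rot_rot, neg_neg]
  refine ⟨u, ?_⟩
  let f : Lat n →+ ZMod 2 :=
    { toFun := fun m => ((om u m + qf m + qf (mt g⁻¹ *ᵥ m) : ℤ) : ZMod 2)
      map_zero' := by
        have h1 : om u (0 : Lat n) = 0 := by simp [om]
        have h2 : qf (0 : Lat n) = 0 := by simp [qf]
        rw [mulVec_zero, h1, h2]
        simp
      map_add' := fun m m' => by
        rw [mulVec_add, om_add_right, qf_add, qf_add]
        have h1 : om (mt g⁻¹ *ᵥ m) (mt g⁻¹ *ᵥ m') = om m m' := om_act _ _ _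
        rw [h1]
        have h2 : (2 : ZMod 2) = 0 := rfl
        push_cast
        rw [h2]
        have h3 : ∀ x : ZMod 2, x + x = 0 := by decide
        linear_combination h3 (om m m' : ZMod 2) }
  have hf : f = 0 := by
    refine AddMonoidHom.functions_ext' _ _ _ fun j => ?_
    refine AddMonoidHom.ext_int ?_
    change ((om u (Pi.single j 1) + qf (Pi.single j 1 : Lat n) +
      qf (mt g⁻¹ *ᵥ (Pi.single j 1 : Lat n)) : ℤ) : ZMod 2) = 0
    rw [om_single, hu]
    change ((qf (Pi.single j 1 : Lat n) + qf (mt g⁻¹ *ᵥ (Pi.single j 1 : Lat n)) +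
      qf (Pi.single j 1 : Lat n) + qf (mt g⁻¹ *ᵥ (Pi.single j 1 : Lat n)) : ℤ) : ZMod 2) = 0
    push_cast
    have h3 : ∀ x y : ZMod 2, x + y + x + y = 0 := by decide
    exact h3 _ _
  intro m
  have h := DFunLike.congr_fun hf m
  have h1 : ((om u m + qf m + qf (mt g⁻¹ *ᵥ m) : ℤ) : ZMod 2) = 0 := h
  exact even_iff_two_dvd.mpr ((ZMod.intCast_zmod_eq_zero_iff_dvd _ 2).mp h1)

theorem exists_Lam {n : ℕ} (g : Sp n) : ∃ x ∈ Lam n, x.right = g := by
  obtain ⟨u, hu⟩ := exists_Tw g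
  exact ⟨⟨Multiplicative.ofAdd u, g⟩, hu, rfl⟩

/-- `2ℤ^{2n} ≤ Lam n`. -/
theorem double_mem_Lam {n : ℕ} (m : Lat n) :
    (SemidirectProduct.inl (Multiplicative.ofAdd (m + m)) : Gam n) ∈ Lam n := by
  intro k
  change Even (om (m + m) k + qf k + qf (mt (1 : Sp n)⁻¹ *ᵥ k))
  rw [inv_one, mt_one, om_add_left]
  exact ⟨om m k + qf k, by ring⟩

end Vale.Agent.P092.R2.H559
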