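import Vale.Agent.P092.R2.H559.Meas
import Vale.Agent.P092.R2.H559.Surj

/-!
The isomorphism of the group von Neumann algebras of `Gam n = ℤ^{2n} ⋊ Sp_{2n}(ℤ)` and `Lam n`.
-/

namespace Vale.Agent.P092.R2.H559

open Vale.Agent.P092.H160

/-- A unitary which carries `δ_e` to `δ_e` and conjugates `L(Γ)` onto `L(Λ)`. -/
def Spatial {Γ Λ : Type} [Group Γ] [Group Λ] (W : Ell2 Γ ≃ₗᵢ[ℂ] Ell2 Λ) : Prop :=
  W (dl 1) = dl 1 ∧ ∀ T : St.Op Γ, St.InL (conj W T) ↔ St.InL T

theorem conj_symm_conj {X Y : Type} (W : Ell2 X ≃ₗᵢ[ℂ] Ell2 Y) (T : St.Op X) :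
    conj W.symm (conj W T) = T := by
  refine ContinuousLinearMap.ext fun ξ => ?_
  rw [conj_apply, conj_apply, LinearIsometryEquiv.symm_symm,
    LinearIsometryEquiv.symm_apply_apply, LinearIsometryEquiv.symm_apply_apply]

theorem conj_conj_symm {X Y : Type} (W : Ell2 X ≃ₗᵢ[ℂ] Ell2 Y) (T : St.Op Y) :
    conj W (conj W.symm T) = T := by
  refine ContinuousLinearMap.ext fun ξ => ?_
  rw [conj_apply, conj_apply, LinearIsometryEquiv.symm_symm,
    LinearIsometryEquiv.apply_symm_apply, LinearIsometryEquiv.apply_symm_apply]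

/-- A spatial isomorphism is a `*`-isomorphism. -/
noncomputable def Spatial.starIso {Γ Λ : Type} [Group Γ] [Group Λ] {W : Ell2 Γ ≃ₗᵢ[ℂ] Ell2 Λ}
    (h : Spatial W) : St.StarIso Γ Λ where
  toFun := conj W
  invFun := conj W.symm
  map_mem T hT := (h.2 T).mpr hT
  inv_mem T hT := (h.2 _).mp (by rwa [conj_conj_symm])
  left_inv T _ := conj_symm_conj W T
  right_inv T _ := conj_conj_symm W T
  map_add S T _ _ := by
    refine ContinuousLinearMap.ext fun ξ => ?_
    change W ((S + T) (W.symm ξ)) = W (S (W.symm ξ)) + W (T (W.symm ξ))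
    rw [← map_add]
    rfl
  map_smul c S T _ _ hc := fun ξ => by
    change W (T (W.symm ξ)) = c • W (S (W.symm ξ))
    rw [← map_smul]
    exact congrArg W (hc (W.symm ξ))
  map_mul S T _ _ := by
    refine ContinuousLinearMap.ext fun ξ => ?_
    change W (S (T (W.symm ξ))) = W (S (W.symm (W (T (W.symm ξ)))))
    rw [LinearIsometryEquiv.symm_apply_apply]
  map_adj S T _ _ hST := fun ξ η => by
    change inner ℂ (W (S (W.symm ξ))) η = inner ℂ ξ (W (T (W.symm η)))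
    have h1 : inner ℂ (W (S (W.symm ξ))) η = inner ℂ (S (W.symm ξ)) (W.symm η) := by
      conv_lhs => rw [← W.apply_symm_apply η]
      exact W.inner_map_map _ _
    have h2 : inner ℂ ξ (W (T (W.symm η))) = inner ℂ (W.symm ξ) (T (W.symm η)) := by
      conv_lhs => rw [← W.apply_symm_apply ξ]
      exact W.inner_map_map _ _
    rw [h1, h2]
    exact hST _ _

/-- The isomorphism preserves the traces. -/
theorem Spatial.trace {Γ Λ : Type} [Group Γ] [Group Λ] {W : Ell2 Γ ≃ₗᵢ[ℂ] Ell2 Λ}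
    (h : Spatial W) (T : St.Op Γ) : St.tr (conj W T) = St.tr T := by
  change inner ℂ (dl 1 : Ell2 Λ) (W (T (W.symm (dl 1)))) = inner ℂ (dl 1 : Ell2 Γ) (T (dl 1))
  have h1 : W.symm (dl 1) = dl 1 := by
    rw [LinearIsometryEquiv.symm_apply_eq, h.1]
  rw [h1]
  conv_lhs => rw [← h.1]
  exact W.inner_map_map _ _

/-- **The isomorphism** `L(ℤ^{2n} ⋊ Sp_{2n}(ℤ)) ≅ L(Lam n)`. -/
theorem iso_Gam_Lam (n : ℕ) : ∃ W : Ell2 (Gam n) ≃ₗᵢ[ℂ] Ell2 (Lam n), Spatial W := by
  obtain ⟨W, h1, h2⟩ := exists_iso (n := n) (MonoidHom.id (Sp n)) (MonoidHom.id (Gam n))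
    SemidirectProduct.rightHom (fun a => rfl) SemidirectProduct.rightHom_surjective
    Function.injective_id
    (fun m => ⟨SemidirectProduct.inl (Multiplicative.ofAdd m), rfl, rfl⟩)
    (Lam n).subtype (SemidirectProduct.rightHom.comp (Lam n).subtype) (fun a => rfl)
    (fun g => by
      obtain ⟨x, hx, hg⟩ := exists_Lam g
      exact ⟨⟨x, hx⟩, hg⟩)
    Subtype.val_injective (fun a => a.2)
    (fun m => ⟨⟨_, double_mem_Lam m⟩, rfl, rfl⟩)
  exact ⟨W, h1, fun T => by rw [inL_iff, inL_iff]; exact h2 T⟩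

/-- The preimage in `Gam n` of a subgroup of `Sp_{2n}(ℤ)`. -/
def GamS {n : ℕ} (S : Subgroup (Sp n)) : Subgroup (Gam n) := S.comap SemidirectProduct.rightHom

/-- The preimage in `Lam n` of a subgroup of `Sp_{2n}(ℤ)`. -/
def LamS {n : ℕ} (S : Subgroup (Sp n)) : Subgroup (Gam n) := Lam n ⊓ GamS S

/-- **The isomorphism**, for every subgroup of `Sp_{2n}(ℤ)`. -/
theorem iso_GamS_LamS {n : ℕ} (S : Subgroup (Sp n)) :
    ∃ W : Ell2 (GamS S) ≃ₗᵢ[ℂ] Ell2 (LamS S), Spatial W := by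
  let p : GamS S →* S :=
    { toFun := fun a => ⟨(a : Gam n).right, a.2⟩
      map_one' := rfl
      map_mul' := fun a b => rfl }
  let p' : LamS S →* S :=
    { toFun := fun a => ⟨(a : Gam n).right, a.2.2⟩
      map_one' := rfl
      map_mul' := fun a b => rfl }
  obtain ⟨W, h1, h2⟩ := exists_iso (n := n) S.subtype (GamS S).subtype p (fun a => rfl)
    (fun g => ⟨⟨SemidirectProduct.inr (g : Sp n), g.2⟩, rfl⟩)
    Subtype.val_injective
    (fun m => ⟨⟨SemidirectProduct.inl (Multiplicative.ofAdd m), S.one_mem⟩, rfl, rfl⟩)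
    (LamS S).subtype p' (fun a => rfl)
    (fun g => by
      obtain ⟨x, hx, hg⟩ := exists_Lam (g : Sp n)
      refine ⟨⟨x, hx, ?_⟩, Subtype.ext hg⟩
      change x.right ∈ S
      rw [hg]
      exact g.2)
    Subtype.val_injective (fun a => a.2.1)
    (fun m => ⟨⟨_, double_mem_Lam m, S.one_mem⟩, rfl, rfl⟩)
  exact ⟨W, h1, fun T => by rw [inL_iff, inL_iff]; exact h2 T⟩

end Vale.Agent.P092.R2.H559
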