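import Vale.Agent.P092.R2.H559.St
import Vale.Agent.P092.R2.H559.Main
import Vale.Agent.P092.R2.H32.T0

/-!
The comparison of the groups of the statement with `Gam n` and `Lam n`, and of the two
formulations of property (T).
-/

namespace Vale.Agent.P092.R2.H559

open Vale.Agent.P092.H160

/-- From the group of the statement to the semidirect product of Mathlib. -/
def eG (n : ℕ) : St.Gam n ≃* Gam n where
  toFun a := ⟨Multiplicative.ofAdd a.u, a.g⟩
  invFun a := ⟨Multiplicative.toAdd a.left, a.right⟩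
  left_inv _ := rfl
  right_inv _ := rfl
  map_mul' _ _ := rfl

theorem mem_Lam_iff {n : ℕ} (a : St.Gam n) : eG n a ∈ Lam n ↔ a ∈ St.Lam n := Iff.rfl

/-- From the twisted group of the statement to `Lam n`. -/
def eL (n : ℕ) : St.Lam n ≃* Lam n where
  toFun a := ⟨eG n a, (mem_Lam_iff (a : St.Gam n)).mpr a.2⟩
  invFun a := ⟨(eG n).symm a, a.2⟩
  left_inv _ := rfl
  right_inv _ := rfl
  map_mul' _ _ := rfl

theorem icc_of_equiv {G H : Type} [Group G] [Group H] (e : G ≃* H)
    (h : ∀ x : H, x ≠ 1 → Set.Infinite {y : H | ∃ h, y = h * x * h⁻¹}) (x : G) (hx : x ≠ 1) :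
    Set.Infinite {y : G | ∃ h, y = h * x * h⁻¹} := by
  intro hfin
  refine h (e x) (by simpa using hx) ((hfin.image e).subset ?_)
  rintro y ⟨k, rfl⟩
  exact ⟨e.symm k * x * (e.symm k)⁻¹, ⟨_, rfl⟩, by simp⟩

/-- The unitary of a group element in a unitary representation. -/
noncomputable def unit {G H : Type} [Group G] [NormedAddCommGroup H] [InnerProductSpace ℂ H]
    (π : H885.URep G H) (g : G) : H ≃ₗᵢ[ℂ] H where
  toFun := π.act g
  invFun := π.act g⁻¹
  map_add' := π.act_add g
  map_smul' := π.act_smul g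
  left_inv v := by
    rw [← π.act_mul, inv_mul_cancel, π.act_one]
  right_inv v := by
    rw [← π.act_mul, mul_inv_cancel, π.act_one]
  norm_map' := π.norm_act g

/-- The two formulations of property (T). -/
theorem hasT_of_propT {G G' : Type} [Group G] [Group G'] (e : G' ≃* G) (h : H32.PropT G) :
    St.HasT G' := by
  classical
  obtain ⟨Q, ε, hε, h⟩ := h
  refine ⟨insert 1 (Q.image e.symm), ε, hε, fun H _ _ _ π hπ v => ?_⟩
  by_cases hv : v = 0
  · refine ⟨1, Finset.mem_insert_self _ _, ?_⟩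
    rw [hv, norm_zero, mul_zero]
    exact norm_nonneg _
  · by_contra hcon
    push Not at hcon
    let ρ : G →* (H ≃ₗᵢ[ℂ] H) :=
      { toFun := fun g => unit π (e.symm g)
        map_one' := by
          ext w
          change π.act (e.symm 1) w = w
          rw [map_one, π.act_one]
        map_mul' := fun g k => by
          ext w
          change π.act (e.symm (g * k)) w = π.act (e.symm g) (π.act (e.symm k) w)
          rw [map_mul, π.act_mul] }
    obtain ⟨η, hη, hinv⟩ := h H ρ v hv fun s hs => (hcon (e.symm s)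
      (Finset.mem_insert_of_mem (Finset.mem_image_of_mem _ hs))).le
    refine hη (hπ η fun g => ?_)
    have h1 := hinv (e g)
    change π.act (e.symm (e g)) η = η at h1
    rwa [e.symm_apply_apply] at h1

/-- **The isomorphism**, for the groups of the statement. -/
theorem iso_St (n : ℕ) : ∃ W : Ell2 (St.Gam n) ≃ₗᵢ[ℂ] Ell2 (St.Lam n), Spatial W := by
  obtain ⟨W, h1, h2⟩ := exists_iso (n := n) (MonoidHom.id (Sp n)) (eG n).toMonoidHom
    (SemidirectProduct.rightHom.comp (eG n).toMonoidHom) (fun a => rfl)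
    (fun g => ⟨⟨0, g⟩, rfl⟩) (eG n).injective
    (fun m => ⟨⟨m, 1⟩, rfl, rfl⟩)
    ((eG n).toMonoidHom.comp (St.Lam n).subtype)
    (SemidirectProduct.rightHom.comp ((eG n).toMonoidHom.comp (St.Lam n).subtype)) (fun a => rfl)
    (fun g => by
      obtain ⟨x, hx, hg⟩ := exists_Lam g
      exact ⟨⟨(eG n).symm x, hx⟩, hg⟩)
    ((eG n).injective.comp Subtype.val_injective) (fun a => a.2)
    (fun m => ⟨⟨(eG n).symm (SemidirectProduct.inl (Multiplicative.ofAdd (m + m))),
      double_mem_Lam m⟩, rfl, rfl⟩)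
  exact ⟨W, h1, fun T => by rw [inL_iff, inL_iff]; exact h2 T⟩

/-- **The isomorphism**, for every subgroup of `Sp_{2n}(ℤ)`. -/
theorem iso_StS {n : ℕ} (S : Subgroup (Sp n)) :
    ∃ W : Ell2 (St.GamS S) ≃ₗᵢ[ℂ] Ell2 (St.Lam n ⊓ St.GamS S : Subgroup (St.Gam n)),
      Spatial W := by
  let p : St.GamS S →* S :=
    { toFun := fun a => ⟨(a : St.Gam n).g, a.2⟩
      map_one' := rfl
      map_mul' := fun a b => rfl }
  let p' : (St.Lam n ⊓ St.GamS S : Subgroup (St.Gam n)) →* S :=
    { toFun := fun a => ⟨(a : St.Gam n).g, a.2.2⟩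
      map_one' := rfl
      map_mul' := fun a b => rfl }
  obtain ⟨W, h1, h2⟩ := exists_iso (n := n) S.subtype
    ((eG n).toMonoidHom.comp (St.GamS S).subtype) p (fun a => rfl)
    (fun g => ⟨⟨⟨0, (g : Sp n)⟩, g.2⟩, rfl⟩)
    ((eG n).injective.comp Subtype.val_injective)
    (fun m => ⟨⟨⟨m, 1⟩, S.one_mem⟩, rfl, rfl⟩)
    ((eG n).toMonoidHom.comp (St.Lam n ⊓ St.GamS S : Subgroup (St.Gam n)).subtype) p'
    (fun a => rfl)
    (fun g => by
      obtain ⟨x, hx, hg⟩ := exists_Lam (g : Sp n)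
      refine ⟨⟨(eG n).symm x, hx, ?_⟩, Subtype.ext hg⟩
      change x.right ∈ S
      rw [hg]
      exact g.2)
    ((eG n).injective.comp Subtype.val_injective) (fun a => a.2.1)
    (fun m => ⟨⟨(eG n).symm (SemidirectProduct.inl (Multiplicative.ofAdd (m + m))),
      double_mem_Lam m, S.one_mem⟩, rfl, rfl⟩)
  exact ⟨W, h1, fun T => by rw [inL_iff, inL_iff]; exact h2 T⟩

end Vale.Agent.P092.R2.H559
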