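import Vale.Agent.P092.R2.H559.Blk

/-!
The abstract isomorphism: a group `G` over `S` with a cocycle `w` of unimodular functions on a
probability space `K` with an action of `S`, such that the functions of the elements of the kernel
form an orthonormal basis of `L²(K)`. The group von Neumann algebra of `G` depends only on the
action of `S` on `K`.
-/

open scoped InnerProductSpace
open MeasureTheory

namespace Vale.Agent.P092.R2.H559

open Vale.Agent.P092.H160

variable {S K : Type} [Group S] [MulAction S K] [MeasurableSpace K] {μ : Measure K}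
  [IsProbabilityMeasure μ]

/-- A group `G` over `S` with a cocycle of unimodular functions on `K`. -/
structure Dat (S K : Type) [Group S] [MulAction S K] [MeasurableSpace K] (μ : Measure K)
    [IsProbabilityMeasure μ] (G : Type) [Group G] where
  /-- the quotient map -/
  p : G →* S
  /-- the cocycle -/
  w : G → K → ℂ
  meas : ∀ a, Measurable (w a)
  nrm : ∀ a z, ‖w a z‖ = 1
  coc : ∀ a b z, w (a * b) z = w a z * w b ((p a)⁻¹ • z)
  surj : Function.Surjective p
  orth : ∀ a, p a = 1 → a ≠ 1 → ∫ z, w a z ∂μ = 0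
  tot : ∀ f : Lp ℂ 2 μ, (∀ a, p a = 1 → ⟪(uv (w a) (meas a) (nrm a) : Lp ℂ 2 μ), f⟫_ℂ = 0) → f = 0

namespace Dat

variable {G : Type} [Group G] (D : Dat S K μ G) (hmp : ∀ s : S, MeasurePreserving (fun z : K => s • z) μ μ)

theorem w_one (z : K) : D.w 1 z = 1 := by
  have h := D.coc 1 1 z
  rw [mul_one, map_one, inv_one, one_smul] at h
  have h0 : D.w 1 z ≠ 0 := by
    intro h0
    have := D.nrm 1 z
    rw [h0, norm_zero] at this
    exact zero_ne_one this
  exact (mul_eq_left₀ h0).mp h.symm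

/-- the vector `w_a` of `L²(K)` -/
noncomputable def v (a : G) : Lp ℂ 2 μ := uv (D.w a) (D.meas a) (D.nrm a)

open Classical in
/-- the basis vector `w_a ⊗ δ_{p(a)}` -/
noncomputable def eps (a : G) : L2s S (Lp ℂ 2 μ) := lp.single 2 (D.p a) (D.v a)

theorem eps_apply_self (a : G) : D.eps a (D.p a) = D.v a := by
  classical
  exact lp.single_apply_self 2 _ _

theorem eps_apply_of_eq {a : G} {s : S} (h : s = D.p a) : D.eps a s = D.v a := by
  rw [h, eps_apply_self]

theorem eps_apply_ne {a : G} {s : S} (h : s ≠ D.p a) : D.eps a s = 0 := by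
  classical
  exact lp.single_apply_ne 2 _ _ h

theorem inner_eps (a : G) (f : L2s S (Lp ℂ 2 μ)) : ⟪D.eps a, f⟫_ℂ = ⟪D.v a, f (D.p a)⟫_ℂ := by
  classical
  exact lp.inner_single_left _ _ _

theorem inner_v (a b : G) (h : D.p a = D.p b) : ⟪D.v a, D.v b⟫_ℂ = ∫ z, D.w (b * a⁻¹) z ∂μ := by
  rw [MeasureTheory.L2.inner_def]
  refine integral_congr_ae ?_
  filter_upwards [uv_coe (μ := μ) (D.meas a) (D.nrm a), uv_coe (μ := μ) (D.meas b) (D.nrm b)]
    with z hz hz'
  change ⟪(uv (D.w a) (D.meas a) (D.nrm a) : Lp ℂ 2 μ) z,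
    (uv (D.w b) (D.meas b) (D.nrm b) : Lp ℂ 2 μ) z⟫_ℂ = _
  rw [hz, hz']
  have h1 := D.coc (b * a⁻¹) a z
  rw [inv_mul_cancel_right, map_mul, map_inv, ← h, mul_inv_cancel, inv_one, one_smul] at h1
  rw [h1, RCLike.inner_apply]
  have h2 : D.w a z * (starRingEnd ℂ) (D.w a z) = 1 := by
    rw [Complex.mul_conj, Complex.normSq_eq_norm_sq, D.nrm]; norm_num
  rw [mul_assoc, h2, mul_one]

theorem orthonormal : Orthonormal ℂ D.eps := by
  classical
  rw [orthonormal_iff_ite]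
  intro a b
  rw [inner_eps]
  by_cases h : D.p a = D.p b
  · rw [D.eps_apply_of_eq h, D.inner_v a b h]
    split_ifs with hab
    · subst hab
      simp only [mul_inv_cancel, D.w_one, integral_const, probReal_univ, one_smul]
    · refine D.orth _ ?_ ?_
      · rw [map_mul, map_inv, ← h, mul_inv_cancel]
      · intro h1
        exact hab (mul_inv_eq_one.mp h1).symm
  · rw [D.eps_apply_ne h, inner_zero_right, if_neg]
    rintro rfl
    exact h rfl

theorem total (f : L2s S (Lp ℂ 2 μ)) (hf : ∀ a, ⟪D.eps a, f⟫_ℂ = 0) : f = 0 := by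
  apply lp.ext
  funext s
  obtain ⟨a, rfl⟩ := D.surj s
  have hid : MeasurePreserving (id : K → K) μ μ := MeasurePreserving.id μ
  set V := mop (D.w a) (D.meas a) (D.nrm a) id hid with hV
  have hc : Measurable fun z => (starRingEnd ℂ) (D.w a z) :=
    Complex.continuous_conj.measurable.comp (D.meas a)
  have hc1 : ∀ z, ‖(starRingEnd ℂ) (D.w a z)‖ = 1 := fun z => by
    rw [RCLike.norm_conj, D.nrm]
  set V' := mop (fun z => (starRingEnd ℂ) (D.w a z)) hc hc1 id hid with hV'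
  have hVV : V (V' (f (D.p a))) = f (D.p a) := by
    apply Lp.ext
    refine (mop_mop_coe (D.meas a) (D.nrm a) hid hc hc1 hid _).trans ?_
    refine Filter.Eventually.of_forall fun z => ?_
    beta_reduce
    rw [id, ← mul_assoc, Complex.mul_conj, Complex.normSq_eq_norm_sq, D.nrm]
    norm_num
  have h0 : V' (f (D.p a)) = 0 := by
    refine D.tot _ fun n hn => ?_
    have h1 : V (uv (D.w n) (D.meas n) (D.nrm n)) = D.v (n * a) := by
      refine mop_uv _ _ _ _ _ _ _ fun z => ?_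
      rw [D.coc, hn, inv_one, one_smul, mul_comm]
      rfl
    rw [← V.inner_map_map, hVV, h1]
    have h2 := hf (n * a)
    rw [inner_eps, map_mul, hn, one_mul] at h2
    exact h2
  rw [← hVV, h0, map_zero]
  rfl

/-- The Hilbert basis `w_a ⊗ δ_{p(a)}`. -/
noncomputable def basis : HilbertBasis G ℂ (L2s S (Lp ℂ 2 μ)) :=
  HilbertBasis.mkOfOrthogonalEqBot D.orthonormal (by
    rw [Submodule.eq_bot_iff]
    intro f hf
    refine D.total f fun a => ?_
    exact (Submodule.mem_orthogonal _ _).mp hf _ (Submodule.subset_span ⟨a, rfl⟩))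

/-- The unitary `ℓ²(G) → ℓ²(S; L²(K))`, `δ_a ↦ w_a ⊗ δ_{p(a)}`. -/
noncomputable def U : Ell2 G ≃ₗᵢ[ℂ] L2s S (Lp ℂ 2 μ) := D.basis.repr.symm

theorem U_dl (a : G) : D.U (dl a) = D.eps a := by
  classical
  have h := D.basis.repr_symm_single a
  have e : (D.basis : G → L2s S (Lp ℂ 2 μ)) = D.eps := HilbertBasis.coe_mkOfOrthogonalEqBot _ _
  rw [e] at h
  rw [← h, U, dl]

/-- left operators -/
noncomputable def Lo (b : G) : L2s S (Lp ℂ 2 μ) →ₗᵢ[ℂ] L2s S (Lp ℂ 2 μ) :=
  blk (Equiv.mulLeft (D.p b)⁻¹) fun _ => mop (D.w b) (D.meas b) (D.nrm b) _ (hmp (D.p b)⁻¹)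

/-- right operators -/
noncomputable def Ro (a : G) : L2s S (Lp ℂ 2 μ) →ₗᵢ[ℂ] L2s S (Lp ℂ 2 μ) :=
  blk (Equiv.mulRight (D.p a)) fun s => mop (fun z => D.w a⁻¹ ((s * D.p a)⁻¹ • z))
    ((D.meas a⁻¹).comp (hmp (s * D.p a)⁻¹).measurable) (fun _ => D.nrm _ _) id
    (MeasurePreserving.id μ)

theorem Lo_eps (b a : G) : D.Lo hmp b (D.eps a) = D.eps (b * a) := by
  apply lp.ext
  funext s
  rw [Lo, blk_apply]
  by_cases h : s = D.p (b * a)
  · rw [D.eps_apply_of_eq h, D.eps_apply_of_eq (by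
      rw [h, map_mul, Equiv.coe_mulLeft]; exact inv_mul_cancel_left _ _)]
    refine mop_uv _ _ _ _ _ _ _ fun z => ?_
    rw [D.coc]
  · rw [D.eps_apply_ne h, D.eps_apply_ne, map_zero]
    intro h1
    apply h
    rw [Equiv.coe_mulLeft, inv_mul_eq_iff_eq_mul] at h1
    rw [h1, map_mul]

theorem Ro_eps (a b : G) : D.Ro hmp a (D.eps b) = D.eps (b * a⁻¹) := by
  apply lp.ext
  funext s
  rw [Ro, blk_apply]
  by_cases h : s = D.p (b * a⁻¹)
  · have h' : s * D.p a = D.p b := by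
      rw [h, map_mul, map_inv, inv_mul_cancel_right]
    rw [D.eps_apply_of_eq h, D.eps_apply_of_eq (by rw [Equiv.coe_mulRight]; exact h')]
    refine mop_uv _ _ _ _ _ _ _ fun z => ?_
    rw [D.coc, h', mul_comm]
    rfl
  · rw [D.eps_apply_ne h, D.eps_apply_ne, map_zero]
    intro h1
    apply h
    rw [Equiv.coe_mulRight] at h1
    rw [map_mul, map_inv, ← h1, mul_inv_cancel_right]

theorem U_lam (b : G) (ξ : Ell2 G) : D.U (lam b ξ) = D.Lo hmp b (D.U ξ) := by
  have h : (D.U.toContinuousLinearEquiv : Ell2 G →L[ℂ] L2s S (Lp ℂ 2 μ)) ∘L lam b =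
      (D.Lo hmp b).toContinuousLinearMap ∘L
        (D.U.toContinuousLinearEquiv : Ell2 G →L[ℂ] L2s S (Lp ℂ 2 μ)) := by
    refine op_ext fun a => ?_
    change D.U (lam b (dl a)) = D.Lo hmp b (D.U (dl a))
    rw [lam_dl, U_dl, U_dl, Lo_eps]
  exact DFunLike.congr_fun h ξ

theorem U_rho (a : G) (ξ : Ell2 G) : D.U (rho a ξ) = D.Ro hmp a (D.U ξ) := by
  have h : (D.U.toContinuousLinearEquiv : Ell2 G →L[ℂ] L2s S (Lp ℂ 2 μ)) ∘L rho a =
      (D.Ro hmp a).toContinuousLinearMap ∘L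
        (D.U.toContinuousLinearEquiv : Ell2 G →L[ℂ] L2s S (Lp ℂ 2 μ)) := by
    refine op_ext fun b => ?_
    change D.U (rho a (dl b)) = D.Ro hmp a (D.U (dl b))
    rw [rho_dl, U_dl, U_dl, Ro_eps]
  exact DFunLike.congr_fun h ξ

/-- The left operators of one group commute with the right operators of the other. -/
theorem Lo_Ro {G' : Type} [Group G'] (D' : Dat S K μ G') (b : G) (a : G')
    (ξ : L2s S (Lp ℂ 2 μ)) : D.Lo hmp b (D'.Ro hmp a ξ) = D'.Ro hmp a (D.Lo hmp b ξ) := by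
  refine blk_comm (fun s => ?_) (fun s x => ?_) ξ
  · simp only [Equiv.coe_mulLeft, Equiv.coe_mulRight, mul_assoc]
  · refine mop_mop_eq _ _ _ _ _ _ _ _ _ _ _ _ (fun z => ?_) (fun z => ?_) x
    · simp only [Equiv.coe_mulLeft, id]
      rw [mul_comm]
      congr 2
      rw [← mul_smul]
      congr 1
      group
    · rfl

section main

variable {G' : Type} [Group G'] (D' : Dat S K μ G')

/-- The unitary `ℓ²(G) → ℓ²(G')`. -/
noncomputable def W : Ell2 G ≃ₗᵢ[ℂ] Ell2 G' := D.U.trans D'.U.symm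

theorem W_one : D.W D' (dl 1) = dl 1 := by
  change D'.U.symm (D.U (dl 1)) = dl 1
  rw [LinearIsometryEquiv.symm_apply_eq, U_dl, U_dl]
  classical
  have h : D.v 1 = D'.v 1 := by
    apply Lp.ext
    filter_upwards [uv_coe (μ := μ) (D.meas 1) (D.nrm 1), uv_coe (μ := μ) (D'.meas 1) (D'.nrm 1)]
      with z hz hz'
    change (uv (D.w 1) (D.meas 1) (D.nrm 1) : Lp ℂ 2 μ) z =
      (uv (D'.w 1) (D'.meas 1) (D'.nrm 1) : Lp ℂ 2 μ) z
    rw [hz, hz', w_one, w_one]
  rw [eps, eps, h, map_one, map_one]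

end main

end Dat

/-- Conjugation of an operator by a unitary. -/
noncomputable def conj {X Y : Type} (W : Ell2 X ≃ₗᵢ[ℂ] Ell2 Y) (T : St.Op X) : St.Op Y :=
  (W.toContinuousLinearEquiv : Ell2 X →L[ℂ] Ell2 Y) ∘L T ∘L
    (W.symm.toContinuousLinearEquiv : Ell2 Y →L[ℂ] Ell2 X)

theorem conj_apply {X Y : Type} (W : Ell2 X ≃ₗᵢ[ℂ] Ell2 Y) (T : St.Op X) (ξ : Ell2 Y) :
    conj W T ξ = W (T (W.symm ξ)) := rfl

namespace Dat

variable {G : Type} [Group G] (D : Dat S K μ G)
  (hmp : ∀ s : S, MeasurePreserving (fun z : K => s • z) μ μ)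
  {G' : Type} [Group G'] (D' : Dat S K μ G')

include hmp in
theorem conj_mem {T : St.Op G} (hT : T ∈ LG G) : conj (D.W D') T ∈ LG G' := by
  rw [mem_LG_iff]
  intro a
  -- the operator `U⁻¹ R'_a U` commutes with `λ(G)`, hence with `T`
  set R : St.Op G := (D.U.symm.toContinuousLinearEquiv : L2s S (Lp ℂ 2 μ) →L[ℂ] Ell2 G) ∘L
    (D'.Ro hmp a).toContinuousLinearMap ∘L
    (D.U.toContinuousLinearEquiv : Ell2 G →L[ℂ] L2s S (Lp ℂ 2 μ)) with hR
  have hRa : ∀ ξ, R ξ = D.U.symm (D'.Ro hmp a (D.U ξ)) := fun ξ => rfl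
  have h1 : ∀ g : G, St.mul R (St.u g) = St.mul (St.u g) R := by
    intro g
    refine ContinuousLinearMap.ext fun ξ => ?_
    change R (lam g ξ) = lam g (R ξ)
    rw [hRa, hRa, D.U_lam hmp, ← D.Lo_Ro hmp D', LinearIsometryEquiv.symm_apply_eq, D.U_lam hmp,
      LinearIsometryEquiv.apply_symm_apply]
  have h2 : St.mul T R = St.mul R T := (inL_iff T).mpr hT R h1
  have h3 : ∀ ξ, T (R ξ) = R (T ξ) := fun ξ => DFunLike.congr_fun h2 ξ
  refine ContinuousLinearMap.ext fun ξ => ?_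
  change D'.U.symm (D.U (T (D.U.symm (D'.U (rho a ξ))))) =
    rho a (D'.U.symm (D.U (T (D.U.symm (D'.U ξ)))))
  rw [D'.U_rho hmp]
  have h4 : D.U.symm (D'.Ro hmp a (D'.U ξ)) = R (D.U.symm (D'.U ξ)) := by
    rw [hRa, LinearIsometryEquiv.apply_symm_apply]
  rw [h4, h3, hRa, LinearIsometryEquiv.apply_symm_apply, LinearIsometryEquiv.symm_apply_eq,
    D'.U_rho hmp, LinearIsometryEquiv.apply_symm_apply]

theorem W_symm : (D.W D').symm = D'.W D := rfl

include hmp in
/-- **The isomorphism**: the unitary `W` conjugates `L(G)` onto `L(G')`. -/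
theorem conj_mem_iff {T : St.Op G} : conj (D.W D') T ∈ LG G' ↔ T ∈ LG G := by
  refine ⟨fun h => ?_, D.conj_mem hmp D'⟩
  have h1 := D'.conj_mem hmp D h
  have h2 : conj (D'.W D) (conj (D.W D') T) = T := by
    refine ContinuousLinearMap.ext fun ξ => ?_
    rw [conj_apply, conj_apply, ← D.W_symm D', LinearIsometryEquiv.symm_symm,
      LinearIsometryEquiv.symm_apply_apply, LinearIsometryEquiv.symm_apply_apply]
  rwa [h2] at h1

end Dat

end Vale.Agent.P092.R2.H559
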