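import Vale.Agent.P092.R2.H559.Main

/-!
The exotic automorphisms of `L(ℤ^{2n} ⋊ Sp_{2n}(ℤ))`: for a unimodular measurable function `F` on
`ℝ^{2n}` with `F(x + m) = e(ω(m, x)) F(x)` the functions `w_g = F⁻¹ F ∘ g⁻¹` are periodic, and
`u_m ↦ u_m`, `u_g ↦ w_g⁻¹ u_g` defines an automorphism.
-/

open scoped InnerProductSpace
open MeasureTheory Matrix

namespace Vale.Agent.P092.R2.H559

open Vale.Agent.P092.H160

noncomputable section

local instance : MeasureSpace UnitAddCircle := ⟨AddCircle.haarAddCircle⟩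

local instance : Measure.IsAddHaarMeasure (volume : Measure UnitAddCircle) :=
  inferInstanceAs (Measure.IsAddHaarMeasure AddCircle.haarAddCircle)

local instance : IsProbabilityMeasure (volume : Measure UnitAddCircle) :=
  inferInstanceAs (IsProbabilityMeasure AddCircle.haarAddCircle)

/-- A unimodular section of the line bundle with Chern class `2 ω`. -/
structure Sec (n : ℕ) where
  /-- the function -/
  F : (Fin n ⊕ Fin n → ℝ) → ℂ
  meas : Measurable F
  nrm : ∀ x, ‖F x‖ = 1
  quasi : ∀ x (m : Lat n), F (x + ir m) = ee (omA m x) * F x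

namespace Sec

variable {n : ℕ} (s : Sec n)

theorem ne_zero (x : Fin n ⊕ Fin n → ℝ) : s.F x ≠ 0 := by
  intro h
  have := s.nrm x
  rw [h, norm_zero] at this
  exact zero_ne_one this

/-- The cocycle `w_{(u,g)}(x) = F(x)⁻¹ e(ω(u, x)) F(g⁻¹ x)`. -/
def w (a : Gam n) (x : Fin n ⊕ Fin n → ℝ) : ℂ :=
  (s.F x)⁻¹ * ee (omA (Multiplicative.toAdd a.left) x) * s.F (mact (mt a.right⁻¹) x)

theorem norm_w (a : Gam n) (x : Fin n ⊕ Fin n → ℝ) : ‖s.w a x‖ = 1 := by
  rw [w, norm_mul, norm_mul, norm_inv, s.nrm, norm_ee, s.nrm]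
  norm_num

theorem w_mul (a b : Gam n) (x : Fin n ⊕ Fin n → ℝ) :
    s.w (a * b) x = s.w a x * s.w b (mact (mt a.right⁻¹) x) := by
  have h1 : omA (Multiplicative.toAdd (a * b).left) x =
      omA (Multiplicative.toAdd a.left) x +
        omA (Multiplicative.toAdd b.left) (mact (mt a.right⁻¹) x) := by
    rw [← omA_act_left, ← omA_add_left]
    rfl
  have h2 : mact (mt (a * b).right⁻¹) x = mact (mt b.right⁻¹) (mact (mt a.right⁻¹) x) := by
    rw [← mact_mul, ← mt_mul, ← _root_.mul_inv_rev]
    rfl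
  rw [w, h1, h2, ee_add, w, w]
  have h4 := s.ne_zero (mact (mt a.right⁻¹) x)
  field_simp

theorem w_periodic (a : Gam n) (x : Fin n ⊕ Fin n → ℝ) (m : Lat n) :
    s.w a (x + ir m) = s.w a x := by
  rw [w, w, mact_add, mact_ir, s.quasi, s.quasi, omA_add_right, omA_ir, ee_add_int]
  have h1 : omA (mt a.right⁻¹ *ᵥ m) (mact (mt a.right⁻¹) x) = omA m x := omA_act _ _ _
  rw [h1]
  have h6 := s.ne_zero x
  have h7 := ee_ne_zero (omA m x)
  field_simp

theorem measurable_w (a : Gam n) : Measurable (s.w a) := by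
  unfold w
  refine Measurable.mul (Measurable.mul s.meas.inv (measurable_ee.comp ?_))
    (s.meas.comp (measurable_mact _))
  exact measurable_omA.comp (measurable_const.prodMk measurable_id)

/-- the cocycle on the torus -/
def wt (a : Gam n) (z : Tor n) : ℂ := s.w a (rep z)

theorem wt_mul (a b : Gam n) (z : Tor n) : s.wt (a * b) z = s.wt a z * s.wt b (a.right⁻¹ • z) := by
  obtain ⟨m, hm⟩ := rep_smul a.right⁻¹ z
  rw [wt, wt, wt, w_mul, hm, w_periodic]

theorem wt_ker {a : Gam n} (ha : a.right = 1) (z : Tor n) :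
    s.wt a z = UnitAddTorus.mFourier (rot (Multiplicative.toAdd a.left)) z := by
  have h : mact (mt a.right⁻¹) (rep z) = rep z := by
    rw [ha, inv_one]
    exact mact_one _
  rw [wt, w, h, ← ee_omA_rep]
  have := s.ne_zero (rep z)
  field_simp

/-- The data with the cocycle of the section. -/
def dat : Dat (Sp n) (Tor n) (volume : Measure (Tor n)) (Gam n) where
  p := SemidirectProduct.rightHom
  w := s.wt
  meas a := (s.measurable_w a).comp measurable_rep
  nrm a z := s.norm_w _ _
  coc a b z := s.wt_mul a b z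
  surj := SemidirectProduct.rightHom_surjective
  orth a ha hne := by
    simp only [s.wt_ker ha]
    refine integral_mFourier fun h => hne ?_
    exact SemidirectProduct.ext (rot_eq_zero h) ha
  tot f hf := by
    refine eq_zero_of_mFourier fun k => ?_
    have h1 := hf (SemidirectProduct.inl (Multiplicative.ofAdd (-rot k))) rfl
    have h2 : (uv (s.wt (SemidirectProduct.inl (Multiplicative.ofAdd (-rot k))))
        ((s.measurable_w _).comp measurable_rep) (fun z => s.norm_w _ _) :
          Lp ℂ 2 (volume : Measure (Tor n))) = UnitAddTorus.mFourierLp 2 k := by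
      refine uv_eq_mFourierLp _ _ fun z => ?_
      rw [s.wt_ker rfl]
      change UnitAddTorus.mFourier (rot (-rot k)) z = _
      rw [rot_neg, rot_rot, neg_neg]
    rw [← h2]
    exact h1

end Sec

/-- The data of `Gam n` with the trivial cocycle. -/
def dat0 (n : ℕ) : Dat (Sp n) (Tor n) (volume : Measure (Tor n)) (Gam n) where
  p := SemidirectProduct.rightHom
  w := wGt
  meas a := (measurable_wG a).comp measurable_rep
  nrm a z := norm_wG _ _
  coc a b z := wGt_mul a b z
  surj := SemidirectProduct.rightHom_surjective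
  orth a ha hne := by
    simp only [wGt_ker ha]
    refine integral_mFourier fun h => hne ?_
    exact SemidirectProduct.ext (rot_eq_zero h) ha
  tot f hf := by
    refine eq_zero_of_mFourier fun k => ?_
    have h1 := hf (SemidirectProduct.inl (Multiplicative.ofAdd (-rot k))) rfl
    have h2 : (uv (wGt (SemidirectProduct.inl (Multiplicative.ofAdd (-rot k))))
        ((measurable_wG _).comp measurable_rep) (fun z => norm_wG _ _) :
          Lp ℂ 2 (volume : Measure (Tor n))) = UnitAddTorus.mFourierLp 2 k := by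
      refine uv_eq_mFourierLp _ _ fun z => ?_
      rw [wGt_ker rfl]
      change UnitAddTorus.mFourier (rot (-rot k)) z = _
      rw [rot_neg, rot_rot, neg_neg]
    rw [← h2]
    exact h1

section gen

variable {S K G G' : Type} [Group S] [MulAction S K] [MeasurableSpace K] {μ : Measure K}
  [IsProbabilityMeasure μ] [Group G] [Group G'] (D : Dat S K μ G) (D' : Dat S K μ G')

/-- The Fourier coefficients of the image of `u_a`. -/
theorem Dat.coeff (a : G) (x : G') :
    (conj (D.W D') (lam a) (dl 1) : Ell2 G') x = ⟪D'.eps x, D.eps a⟫_ℂ := by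
  have h1 : (D.W D').symm (dl 1) = dl 1 := by
    rw [LinearIsometryEquiv.symm_apply_eq, D.W_one D']
  rw [conj_apply, h1, lam_dl, mul_one, ← inner_dl, Dat.W]
  change ⟪(dl x : Ell2 G'), D'.U.symm (D.U (dl a))⟫_ℂ = _
  rw [D.U_dl, ← D'.U_dl, ← D'.U.inner_map_map, D'.U.apply_symm_apply]

/-- Off the fibre the coefficients vanish. -/
theorem Dat.coeff_ne {a : G} {x : G'} (h : D'.p x ≠ D.p a) :
    (conj (D.W D') (lam a) (dl 1) : Ell2 G') x = 0 := by
  rw [Dat.coeff, D'.inner_eps, D.eps_apply_ne h, inner_zero_right]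

/-- On the fibre the coefficients are the integrals `∫ conj(w'_x) w_a`. -/
theorem Dat.coeff_eq {a : G} {x : G'} (h : D'.p x = D.p a) :
    (conj (D.W D') (lam a) (dl 1) : Ell2 G') x =
      ∫ z, D.w a z * (starRingEnd ℂ) (D'.w x z) ∂μ := by
  rw [Dat.coeff, D'.inner_eps, D.eps_apply_of_eq h, MeasureTheory.L2.inner_def]
  refine integral_congr_ae ?_
  filter_upwards [uv_coe (μ := μ) (D.meas a) (D.nrm a), uv_coe (μ := μ) (D'.meas x) (D'.nrm x)]
    with z hz hz'
  change ⟪(uv (D'.w x) (D'.meas x) (D'.nrm x) : Lp ℂ 2 μ) z,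
    (uv (D.w a) (D.meas a) (D.nrm a) : Lp ℂ 2 μ) z⟫_ℂ = _
  rw [hz, hz', RCLike.inner_apply]

end gen

/-- **The exotic automorphism** given by a section: a unitary with `W δ_e = δ_e` which conjugates
`L(Gam n)` onto itself and fixes `L(ℤ^{2n})`. -/
theorem exo_spatial {n : ℕ} (s : Sec n) : Spatial ((dat0 n).W s.dat) :=
  ⟨Dat.W_one _ _, fun T => by
    rw [inL_iff, inL_iff]
    exact Dat.conj_mem_iff _ (fun g => measurePreserving_smul g) _⟩

theorem exo_fix {n : ℕ} (s : Sec n) (m : Multiplicative (Lat n)) :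
    conj ((dat0 n).W s.dat) (lam (SemidirectProduct.inl m)) = lam (SemidirectProduct.inl m) := by
  have hmp : ∀ g : Sp n, MeasurePreserving (fun z : Tor n => g • z) volume volume :=
    fun g => measurePreserving_smul g
  set a : Gam n := SemidirectProduct.inl m with ha
  have h1 : (dat0 n).Lo hmp a = s.dat.Lo hmp a := by
    have hw : (dat0 n).w a = s.dat.w a := by
      funext z
      change wGt a z = s.wt a z
      rw [wGt_ker rfl, s.wt_ker rfl]
    refine LinearIsometry.ext fun ξ => ?_
    apply lp.ext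
    funext t
    change mop ((dat0 n).w a) _ _ _ _ _ = mop (s.dat.w a) _ _ _ _ _
    congr 1
    congr 1
  refine ContinuousLinearMap.ext fun ξ => ?_
  rw [conj_apply]
  change s.dat.U.symm ((dat0 n).U (lam a ((dat0 n).U.symm (s.dat.U ξ)))) = lam a ξ
  rw [(dat0 n).U_lam hmp, LinearIsometryEquiv.apply_symm_apply, h1,
    LinearIsometryEquiv.symm_apply_eq, s.dat.U_lam hmp]

/-- The Fourier coefficients of the image of `u_g`, `g ∈ Sp_{2n}(ℤ)`. -/
theorem exo_coeff {n : ℕ} (s : Sec n) (g : Sp n) (u : Lat n) :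
    (conj ((dat0 n).W s.dat) (lam (SemidirectProduct.inr g)) (dl 1) : Ell2 (Gam n))
      ⟨Multiplicative.ofAdd u, g⟩ =
      ∫ z : Tor n, (starRingEnd ℂ) (ee (omA u (rep z)) * ((s.F (rep z))⁻¹ *
        s.F (mact (mt g⁻¹) (rep z)))) := by
  refine (Dat.coeff_eq (dat0 n) s.dat (a := SemidirectProduct.inr g)
    (x := ⟨Multiplicative.ofAdd u, g⟩) rfl).trans ?_
  congr 1
  funext z
  change wGt _ z * _ = _
  have h1 : wGt (SemidirectProduct.inr g : Gam n) z = 1 := by
    change ee (omA (0 : Lat n) _) = 1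
    rw [omA_zero_left, ee_zero]
  rw [h1, one_mul]
  congr 1
  change (s.F (rep z))⁻¹ * ee (omA u (rep z)) * s.F (mact (mt g⁻¹) (rep z)) = _
  ring

theorem exo_coeff_ne {n : ℕ} (s : Sec n) (g : Sp n) {x : Gam n} (hx : x.right ≠ g) :
    (conj ((dat0 n).W s.dat) (lam (SemidirectProduct.inr g)) (dl 1) : Ell2 (Gam n)) x = 0 :=
  Dat.coeff_ne _ _ hx

/-- The basic section `e(ω([x], x))`, equal to `1` on `[0, 1)^{2n}`. -/
def sec0 (n : ℕ) : Sec n where
  F x := ee (omA (fl x) x)
  meas := measurable_ee.comp (measurable_omA.comp (measurable_fl.prodMk measurable_id))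
  nrm x := norm_ee _
  quasi x m := by
    rw [fl_add_ir, ← ee_add]
    have h2 : omA (fl x + m) (x + ir m) = (omA m x + omA (fl x) x) + (om (fl x) m : ℝ) := by
      rw [omA_add_left, omA_add_right, omA_add_right, omA_ir, omA_ir, om_self]
      push_cast; ring
    rw [h2, ee_add_int]

/-- A section may be multiplied by a periodic unimodular function. -/
def Sec.twist {n : ℕ} (s : Sec n) (f : (Fin n ⊕ Fin n → ℝ) → ℂ) (hf : Measurable f)
    (h1 : ∀ x, ‖f x‖ = 1) (hp : ∀ x (m : Lat n), f (x + ir m) = f x) : Sec n where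
  F x := f x * s.F x
  meas := hf.mul s.meas
  nrm x := by rw [norm_mul, h1, s.nrm, one_mul]
  quasi x m := by rw [hp, s.quasi]; ring

end

end Vale.Agent.P092.R2.H559
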