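import Vale.Agent.P092.R2.H559.Bridge
import Vale.Agent.P092.R2.H381.Bg4
import Vale.Agent.P092.R2.H381.Index
import Vale.Agent.P092.R2.H653.NonIso

/-!
Assembly: the properties of the groups of the statement.
-/

namespace Vale.Agent.P092.R2.H559.St

open Vale.Agent.P092.H160

theorem icc_Gam (n : ℕ) (x : Gam n) (hx : x ≠ 1) :
    Set.Infinite {y : Gam n | ∃ h, y = h * x * h⁻¹} :=
  icc_of_equiv (eG n) (H653.icc_Gam n) x hx

theorem icc_Lam (n : ℕ) (x : Lam n) (hx : x ≠ 1) :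
    Set.Infinite {y : Lam n | ∃ h, y = h * x * h⁻¹} :=
  icc_of_equiv (eL n) (H653.icc_Lam n) x hx

theorem hasT_Gam {n : ℕ} (hn : 3 ≤ n) : HasT (Gam n) :=
  hasT_of_propT (eG n) (H381.propT_Gam hn)

theorem hasT_Lam {n : ℕ} (hn : 3 ≤ n) : HasT (Lam n) :=
  hasT_of_propT (eL n) (H381.propT_Lam hn)

theorem not_iso {n : ℕ} (hn : 2 ≤ n) : IsEmpty (Gam n ≃* Lam n) :=
  ⟨fun f => (H653.not_iso hn).false (((eG n).symm.trans f).trans (eL n))⟩

theorem index_Lam (n : ℕ) : (Lam n).index = 4 ^ n := by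
  rw [← H381.index_Lam n]
  have h : Lam n = (H559.Lam n).comap (eG n).toMonoidHom := rfl
  rw [h]
  exact Subgroup.index_comap_of_surjective _ (eG n).surjective

end Vale.Agent.P092.R2.H559.St
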