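import Vale.Agent.P092.R2.H559.Tor
import Vale.Agent.P092.R2.H559.Dat

/-!
The torus: the action of `Sp_{2n}(ℤ)`, representatives, measurability, Fourier basis.
-/

open scoped InnerProductSpace
open MeasureTheory

namespace Vale.Agent.P092.R2.H559

open Vale.Agent.P092.H160

noncomputable section

/-- In this file the measure on `ℝ / ℤ` is normalised to have total volume 1. -/
local instance : MeasureSpace UnitAddCircle := ⟨AddCircle.haarAddCircle⟩

local instance : Measure.IsAddHaarMeasure (volume : Measure UnitAddCircle) :=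
  inferInstanceAs (Measure.IsAddHaarMeasure AddCircle.haarAddCircle)

local instance : IsProbabilityMeasure (volume : Measure UnitAddCircle) :=
  inferInstanceAs (IsProbabilityMeasure AddCircle.haarAddCircle)

variable {n : ℕ}

/-- The torus. -/
abbrev Tor (n : ℕ) : Type := UnitAddTorus (Fin n ⊕ Fin n)

instance torAction : MulAction (Sp n) (Tor n) where
  smul g z := mact (mt g) z
  one_smul z := mact_one z
  mul_smul g h z := mact_mul (mt g) (mt h) z

theorem tor_smul (g : Sp n) (z : Tor n) : g • z = mact (mt g) z := rfl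

/-- the representative in `[0,1)` -/
def rep (z : Tor n) : Fin n ⊕ Fin n → ℝ := fun i => (AddCircle.equivIco (1 : ℝ) 0 (z i) : ℝ)

theorem coe_rep (z : Tor n) (i : Fin n ⊕ Fin n) : ((rep z i : ℝ) : UnitAddCircle) = z i :=
  AddCircle.coe_equivIco

theorem measurable_rep : Measurable (rep (n := n)) := by
  refine measurable_pi_lambda _ fun i => ?_
  exact measurable_subtype_coe.comp
    ((AddCircle.measurableEquivIco (1 : ℝ) 0).measurable.comp (measurable_pi_apply i))

theorem rep_smul (g : Sp n) (z : Tor n) : ∃ m : Lat n, rep (g • z) = mact (mt g) (rep z) + ir m := by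
  have h : ∀ i, ∃ k : ℤ, rep (g • z) i = mact (mt g) (rep z) i + (k : ℝ) := by
    intro i
    have h1 : ((rep (g • z) i : ℝ) : UnitAddCircle) = ((mact (mt g) (rep z) i : ℝ) : UnitAddCircle) := by
      rw [coe_rep, tor_smul]
      have h2 := congrFun (map_mact (QuotientAddGroup.mk' (AddSubgroup.zmultiples (1 : ℝ)))
        (mt g) (rep z)) i
      have h3 : (fun i => QuotientAddGroup.mk' (AddSubgroup.zmultiples (1 : ℝ)) (rep z i)) = z :=
        funext fun i => coe_rep z i
      rw [h3] at h2
      exact h2.symm
    have h4 : ((rep (g • z) i - mact (mt g) (rep z) i : ℝ) : UnitAddCircle) = 0 := by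
      rw [AddCircle.coe_sub, h1, sub_self]
    obtain ⟨k, hk⟩ := (AddCircle.coe_eq_zero_iff (1 : ℝ)).mp h4
    refine ⟨k, ?_⟩
    rw [zsmul_eq_mul, mul_one] at hk
    rw [hk]; ring
  choose m hm using h
  exact ⟨m, funext hm⟩

theorem measurePreserving_smul (g : Sp n) :
    MeasurePreserving (fun z : Tor n => g • z) volume volume := by
  let f : Tor n →+ Tor n :=
    { toFun := fun z => mact (mt g) z
      map_zero' := by
        funext i
        simp only [mact, Pi.zero_apply, smul_zero, Finset.sum_const_zero]
      map_add' := fun x y => mact_add (mt g) x y }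
  have hc : Continuous f := by
    refine continuous_pi fun i => ?_
    change Continuous fun z : Tor n => ∑ j, mt g i j • z j
    fun_prop
  have hs : Function.Surjective f := fun z => ⟨g⁻¹ • z, smul_inv_smul g z⟩
  exact AddMonoidHom.measurePreserving hc hs rfl

theorem ee_omA_rep (u : Lat n) (z : Tor n) : ee (omA u (rep z)) = UnitAddTorus.mFourier (rot u) z := by
  have h : ∀ i, fourier (rot u i) (z i) = ee (rot u i • rep z i) := by
    intro i
    conv_lhs => rw [← coe_rep z i]
    rw [fourier_coe_apply, ee]
    congr 1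
    simp only [zsmul_eq_mul]
    push_cast
    ring
  change _ = ∏ i, fourier (rot u i) (z i)
  rw [Finset.prod_congr rfl fun i _ => h i, omA]
  have h2 : ∀ (s : Finset (Fin n ⊕ Fin n)) (f : Fin n ⊕ Fin n → ℝ),
      ee (∑ i ∈ s, f i) = ∏ i ∈ s, ee (f i) := by
    intro s f
    induction s using Finset.cons_induction with
    | empty => simp [ee_zero]
    | cons a s ha ih => rw [Finset.sum_cons, Finset.prod_cons, ee_add, ih]
  exact h2 _ _

theorem measurable_ee : Measurable ee := by
  unfold ee
  fun_prop

theorem measurable_fl : Measurable (fl (n := n)) := by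
  refine measurable_pi_lambda _ fun i => ?_
  exact Int.measurable_floor.comp (measurable_pi_apply i)

theorem measurable_omA : Measurable fun p : Lat n × (Fin n ⊕ Fin n → ℝ) => omA p.1 p.2 := by
  unfold omA
  simp only [zsmul_eq_mul]
  refine Finset.measurable_sum _ fun i _ => ?_
  refine Measurable.mul ?_ ((measurable_pi_apply i).comp measurable_snd)
  have : Measurable fun u : Lat n => (rot u i : ℝ) := measurable_of_countable _
  exact this.comp measurable_fst

theorem measurable_FF : Measurable (FF (n := n)) := by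
  unfold FF
  refine measurable_ee.comp ?_
  refine Measurable.div_const ?_ _
  refine Measurable.add ?_ ?_
  · exact measurable_omA.comp (measurable_fl.prodMk measurable_id)
  · have : Measurable fun u : Lat n => (qf u : ℝ) := measurable_of_countable _
    exact this.comp measurable_fl

theorem measurable_mact (M : Matrix (Fin n ⊕ Fin n) (Fin n ⊕ Fin n) ℤ) :
    Measurable fun x : Fin n ⊕ Fin n → ℝ => mact M x := by
  refine measurable_pi_lambda _ fun i => ?_
  unfold mact
  simp only [zsmul_eq_mul]
  fun_prop

theorem measurable_wL (a : Gam n) : Measurable (wL a) := by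
  unfold wL
  refine Measurable.mul (Measurable.mul measurable_FF.inv (measurable_ee.comp ?_))
    (measurable_FF.comp (measurable_mact _))
  exact Measurable.div_const (measurable_omA.comp (measurable_const.prodMk measurable_id)) _

theorem measurable_wG (a : Gam n) : Measurable (wG a) := by
  unfold wG
  exact measurable_ee.comp (measurable_omA.comp (measurable_const.prodMk measurable_id))

theorem integral_mFourier {k : Lat n} (hk : k ≠ 0) :
    ∫ z : Tor n, UnitAddTorus.mFourier k z = 0 := by
  have h := (orthonormal_iff_ite.mp (UnitAddTorus.orthonormal_mFourier (d := Fin n ⊕ Fin n))) 0 k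
  rw [if_neg hk.symm, ContinuousMap.inner_toLp] at h
  simpa only [UnitAddTorus.mFourier_zero, ContinuousMap.one_apply, map_one, mul_one] using h

theorem eq_zero_of_mFourier {f : Lp ℂ 2 (volume : Measure (Tor n))}
    (h : ∀ k : Lat n, ⟪UnitAddTorus.mFourierLp 2 k, f⟫_ℂ = 0) : f = 0 := by
  rw [← (UnitAddTorus.mFourierBasis (d := Fin n ⊕ Fin n)).repr.map_eq_zero_iff]
  apply lp.ext
  funext k
  rw [HilbertBasis.repr_apply_apply, UnitAddTorus.coe_mFourierBasis]
  exact h k

theorem uv_eq_mFourierLp {φ : Tor n → ℂ} (hφ : Measurable φ) (h1 : ∀ z, ‖φ z‖ = 1) {k : Lat n}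
    (h : ∀ z, φ z = UnitAddTorus.mFourier k z) :
    (uv φ hφ h1 : Lp ℂ 2 (volume : Measure (Tor n))) = UnitAddTorus.mFourierLp 2 k := by
  apply Lp.ext
  filter_upwards [uv_coe (μ := (volume : Measure (Tor n))) hφ h1,
    UnitAddTorus.coeFn_mFourierLp 2 k] with z hz hz'
  rw [hz, hz', h]

/-- the theta cocycle on the torus -/
def wLt (a : Gam n) (z : Tor n) : ℂ := wL a (rep z)

/-- the trivial cocycle on the torus -/
def wGt (a : Gam n) (z : Tor n) : ℂ := wG a (rep z)

theorem wLt_mul (a : Gam n) {b : Gam n} (hb : b ∈ Lam n) (z : Tor n) :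
    wLt (a * b) z = wLt a z * wLt b (a.right⁻¹ • z) := by
  obtain ⟨m, hm⟩ := rep_smul a.right⁻¹ z
  rw [wLt, wLt, wLt, wL_mul, hm, wL_periodic hb]

theorem wGt_mul (a b : Gam n) (z : Tor n) :
    wGt (a * b) z = wGt a z * wGt b (a.right⁻¹ • z) := by
  obtain ⟨m, hm⟩ := rep_smul a.right⁻¹ z
  rw [wGt, wGt, wGt, wG_mul, hm, wG_periodic]

theorem wGt_ker {a : Gam n} (ha : a.right = 1) (z : Tor n) :
    wGt a z = UnitAddTorus.mFourier (rot (Multiplicative.toAdd a.left)) z := ee_omA_rep _ z

theorem wLt_ker {a : Gam n} (ha : a.right = 1) {u : Lat n}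
    (hu : Multiplicative.toAdd a.left = u + u) (z : Tor n) :
    wLt a z = UnitAddTorus.mFourier (rot u) z := by
  have h : mact (mt a.right⁻¹) (rep z) = rep z := by
    rw [ha, inv_one]
    exact mact_one _
  rw [wLt, wL, h, hu, omA_add_left, add_self_div_two, ← ee_omA_rep]
  have := FF_ne_zero (rep z)
  field_simp

theorem even_of_Tw {u : Lat n} (h : Tw u (1 : Sp n)) : ∃ v : Lat n, u = v + v := by
  have h1 : ∀ m : Lat n, Even (om u m) := by
    intro m
    have h2 := h m
    have e : ((((1 : Sp n)⁻¹ : Sp n)) : Matrix (Fin n ⊕ Fin n) (Fin n ⊕ Fin n) ℤ).mulVec m = m := by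
      rw [inv_one]; exact mt_one m
    rw [e, add_assoc] at h2
    have h3 : Even (qf m + qf m) := ⟨_, rfl⟩
    exact (Int.even_add.mp h2).mpr h3
  have h4 : ∀ j, ∃ k, u j = k + k := by
    intro j
    rcases j with j | j
    · obtain ⟨k, hk⟩ := h1 (Pi.single (Sum.inr j) 1)
      rw [om_single] at hk
      exact ⟨k, hk⟩
    · obtain ⟨k, hk⟩ := h1 (Pi.single (Sum.inl j) 1)
      rw [om_single] at hk
      have : -u (Sum.inr j) = k + k := hk
      exact ⟨-k, by omega⟩
  choose v hv using h4
  exact ⟨v, funext hv⟩

section dat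

variable {S G : Type} [Group S] [Group G] (i : S →* Sp n) (j : G →* Gam n) (p : G →* S)

/-- The data of a group of the type `Gam`. -/
def datG (hc : ∀ a, i (p a) = (j a).right) (hs : Function.Surjective p)
    (hj : Function.Injective j)
    (hk : ∀ m : Lat n, ∃ a, p a = 1 ∧ j a = SemidirectProduct.inl (Multiplicative.ofAdd m)) :
    @Dat S (Tor n) _ (MulAction.compHom (Tor n) i) _ (volume : Measure (Tor n)) _ G _ :=
  letI := MulAction.compHom (Tor n) i
  { p := p
    w := fun a => wGt (j a)
    meas := fun a => (measurable_wG (j a)).comp measurable_rep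
    nrm := fun a z => norm_wG _ _
    coc := fun a b z => by
      rw [map_mul, wGt_mul]
      change _ = _ * wGt (j b) (i (p a)⁻¹ • z)
      rw [map_inv, hc]
    surj := hs
    orth := fun a ha hne => by
      have hr : (j a).right = 1 := by rw [← hc, ha, map_one]
      simp only [wGt_ker hr]
      refine integral_mFourier fun h => hne (hj ?_)
      rw [map_one]
      refine SemidirectProduct.ext ?_ hr
      exact rot_eq_zero h
    tot := fun f hf => by
      refine eq_zero_of_mFourier fun k => ?_
      obtain ⟨a, ha, hja⟩ := hk (-rot k)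
      have h1 := hf a ha
      have h2 : (uv (wGt (j a)) ((measurable_wG (j a)).comp measurable_rep)
          (fun z => norm_wG _ _) : Lp ℂ 2 (volume : Measure (Tor n))) =
          UnitAddTorus.mFourierLp 2 k := by
        refine uv_eq_mFourierLp _ _ fun z => ?_
        rw [wGt_ker (by rw [hja]; rfl), hja]
        change UnitAddTorus.mFourier (rot (-rot k)) z = _
        rw [rot_neg, rot_rot, neg_neg]
      rw [← h2]
      exact h1 }

/-- The data of a group of the type `Lam`. -/
def datL (hc : ∀ a, i (p a) = (j a).right) (hs : Function.Surjective p)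
    (hj : Function.Injective j) (hL : ∀ a, j a ∈ Lam n)
    (hk : ∀ m : Lat n, ∃ a, p a = 1 ∧ j a = SemidirectProduct.inl (Multiplicative.ofAdd (m + m))) :
    @Dat S (Tor n) _ (MulAction.compHom (Tor n) i) _ (volume : Measure (Tor n)) _ G _ :=
  letI := MulAction.compHom (Tor n) i
  { p := p
    w := fun a => wLt (j a)
    meas := fun a => (measurable_wL (j a)).comp measurable_rep
    nrm := fun a z => norm_wL _ _
    coc := fun a b z => by
      rw [map_mul, wLt_mul _ (hL b)]
      change _ = _ * wLt (j b) (i (p a)⁻¹ • z)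
      rw [map_inv, hc]
    surj := hs
    orth := fun a ha hne => by
      have hr : (j a).right = 1 := by rw [← hc, ha, map_one]
      have hT : Tw (Multiplicative.toAdd (j a).left) (1 : Sp n) := hr ▸ hL a
      obtain ⟨u, hu⟩ := even_of_Tw hT
      simp only [wLt_ker hr hu]
      refine integral_mFourier fun h => hne (hj ?_)
      rw [map_one]
      refine SemidirectProduct.ext ?_ hr
      have h0 := rot_eq_zero h
      rw [h0, add_zero] at hu
      exact hu
    tot := fun f hf => by
      refine eq_zero_of_mFourier fun k => ?_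
      obtain ⟨a, ha, hja⟩ := hk (-rot k)
      have h1 := hf a ha
      have h2 : (uv (wLt (j a)) ((measurable_wL (j a)).comp measurable_rep)
          (fun z => norm_wL _ _) : Lp ℂ 2 (volume : Measure (Tor n))) =
          UnitAddTorus.mFourierLp 2 k := by
        refine uv_eq_mFourierLp _ _ fun z => ?_
        rw [wLt_ker (u := -rot k) (by rw [hja]; rfl) (by rw [hja]; rfl), rot_neg, rot_rot,
          neg_neg]
      rw [← h2]
      exact h1 }

end dat

/-- **The isomorphism** `L(G) ≅ L(G')` for a group `G` of the type `Gam` and a group `G'` of the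
type `Lam` over the same group `S`. -/
theorem exists_iso {S G G' : Type} [Group S] [Group G] [Group G'] (i : S →* Sp n)
    (j : G →* Gam n) (p : G →* S) (hc : ∀ a, i (p a) = (j a).right)
    (hs : Function.Surjective p) (hj : Function.Injective j)
    (hk : ∀ m : Lat n, ∃ a, p a = 1 ∧ j a = SemidirectProduct.inl (Multiplicative.ofAdd m))
    (j' : G' →* Gam n) (p' : G' →* S) (hc' : ∀ a, i (p' a) = (j' a).right)
    (hs' : Function.Surjective p') (hj' : Function.Injective j') (hL : ∀ a, j' a ∈ Lam n)
    (hk' : ∀ m : Lat n, ∃ a, p' a = 1 ∧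
      j' a = SemidirectProduct.inl (Multiplicative.ofAdd (m + m))) :
    ∃ W : Ell2 G ≃ₗᵢ[ℂ] Ell2 G', W (dl 1) = dl 1 ∧
      ∀ T : St.Op G, conj W T ∈ LG G' ↔ T ∈ LG G := by
  let := MulAction.compHom (Tor n) i
  have hmp : ∀ s : S, MeasurePreserving (fun z : Tor n => s • z) volume volume :=
    fun s => measurePreserving_smul (i s)
  exact ⟨(datG i j p hc hs hj hk).W (datL i j' p' hc' hs' hj' hL hk'), Dat.W_one _ _,
    fun T => Dat.conj_mem_iff _ hmp _⟩

end

end Vale.Agent.P092.R2.H559
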