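import Vale.Agent.P092.R2.H559.Defs

/-!
Definitions used in the statement of `GeneralRigidityFails`: the group
`Γ = ℤ^{2n} ⋊ Sp_{2n}(ℤ)` and its subgroup `Λ` of the pairs `(u, g)` with
`ω(u, m) ≡ q(m) + q(g⁻¹ m)  (mod 2)` for all `m ∈ ℤ^{2n}`,
where `ω` is the standard symplectic form and `q(x, y) = ∑ x_i y_i`.
-/

namespace Vale.Agent.P092.R2.H559.St

open Matrix

/-- The lattice `ℤ^{2n}`, with coordinates indexed by `Fin n ⊕ Fin n`. -/
abbrev Lat (n : ℕ) : Type := Fin n ⊕ Fin n → ℤ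

/-- The integral symplectic group `Sp_{2n}(ℤ)`. -/
abbrev Sp (n : ℕ) : Type := symplecticGroup (Fin n) ℤ

/-- The vector `g m`. -/
def app {n : ℕ} (g : Sp n) (m : Lat n) : Lat n :=
  (g : Matrix (Fin n ⊕ Fin n) (Fin n ⊕ Fin n) ℤ) *ᵥ m

/-- The semidirect product `Γ = ℤ^{2n} ⋊ Sp_{2n}(ℤ)`: the pairs `(u, g)`. -/
@[ext]
structure Gam (n : ℕ) where
  /-- the vector -/
  u : Lat n
  /-- the symplectic matrix -/
  g : Sp n

theorem app_one {n : ℕ} (m : Lat n) : app (1 : Sp n) m = m := by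
  change (1 : Matrix (Fin n ⊕ Fin n) (Fin n ⊕ Fin n) ℤ) *ᵥ m = m
  rw [one_mulVec]

theorem app_mul {n : ℕ} (g h : Sp n) (m : Lat n) : app (g * h) m = app g (app h m) := by
  change ((g : Matrix (Fin n ⊕ Fin n) (Fin n ⊕ Fin n) ℤ) *
    (h : Matrix (Fin n ⊕ Fin n) (Fin n ⊕ Fin n) ℤ)) *ᵥ m = _
  rw [← mulVec_mulVec]
  rfl

theorem app_add {n : ℕ} (g : Sp n) (m m' : Lat n) : app g (m + m') = app g m + app g m' :=
  mulVec_add _ _ _

theorem app_neg {n : ℕ} (g : Sp n) (m : Lat n) : app g (-m) = -app g m := mulVec_neg _ _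

/-- The multiplication `(u, g) (v, h) = (u + g v, g h)`. -/
def gmul {n : ℕ} (a b : Gam n) : Gam n := ⟨a.u + app a.g b.u, a.g * b.g⟩

/-- The identity `(0, 1)`. -/
def gone (n : ℕ) : Gam n := ⟨0, 1⟩

/-- The inverse `(-g⁻¹ u, g⁻¹)`. -/
def ginv {n : ℕ} (a : Gam n) : Gam n := ⟨-app a.g⁻¹ a.u, a.g⁻¹⟩

theorem gmul_assoc {n : ℕ} (a b c : Gam n) : gmul (gmul a b) c = gmul a (gmul b c) := by
  simp only [gmul, app_mul, app_add, add_assoc, mul_assoc]

theorem gone_mul {n : ℕ} (a : Gam n) : gmul (gone n) a = a := by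
  simp only [gmul, gone, app_one, zero_add, one_mul]

theorem gmul_one {n : ℕ} (a : Gam n) : gmul a (gone n) = a := by
  have h : app a.g (0 : Lat n) = 0 := mulVec_zero _
  simp only [gmul, gone, h, add_zero, mul_one]

theorem ginv_mul {n : ℕ} (a : Gam n) : gmul (ginv a) a = gone n := by
  simp only [gmul, gone, ginv, neg_add_cancel, inv_mul_cancel]

instance (n : ℕ) : Group (Gam n) where
  mul := gmul
  one := gone n
  inv := ginv
  mul_assoc := gmul_assoc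
  one_mul := gone_mul
  mul_one := gmul_one
  inv_mul_cancel := ginv_mul

/-- The standard symplectic form on `ℤ^{2n}`. -/
def om {n : ℕ} (u m : Lat n) : ℤ :=
  ∑ i : Fin n, (u (Sum.inl i) * m (Sum.inr i) - u (Sum.inr i) * m (Sum.inl i))

/-- The quadratic form `q(x, y) = ∑ x_i y_i` on `ℤ^{2n}`. -/
def qf {n : ℕ} (m : Lat n) : ℤ := ∑ i : Fin n, m (Sum.inl i) * m (Sum.inr i)

/-- The condition `ω(u, m) ≡ q(m) + q(g⁻¹ m) (mod 2)` for all `m`. -/
def Tw {n : ℕ} (a : Gam n) : Prop := ∀ m : Lat n, Even (om a.u m + qf m + qf (app a.g⁻¹ m))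

theorem Tw.mul {n : ℕ} {a b : Gam n} (ha : Tw a) (hb : Tw b) : Tw (a * b) :=
  H559.Tw.mul (n := n) (u := a.u) (v := b.u) (g := a.g) (h := b.g) ha hb

theorem Tw.one {n : ℕ} : Tw (1 : Gam n) := H559.Tw.one (n := n)

theorem Tw.inv {n : ℕ} {a : Gam n} (ha : Tw a) : Tw a⁻¹ :=
  H559.Tw.inv (n := n) (u := a.u) (g := a.g) ha

/-- The subgroup `Λ` of the pairs `(u, g)` with `ω(u, m) ≡ q(m) + q(g⁻¹ m) (mod 2)` for all `m`. -/
def Lam (n : ℕ) : Subgroup (Gam n) where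
  carrier := {a | Tw a}
  mul_mem' := Tw.mul
  one_mem' := Tw.one
  inv_mem' := Tw.inv

/-- The preimage in `Γ` of a subgroup `S` of `Sp_{2n}(ℤ)`. -/
def GamS {n : ℕ} (S : Subgroup (Sp n)) : Subgroup (Gam n) where
  carrier := {a | a.g ∈ S}
  mul_mem' := fun ha hb => S.mul_mem ha hb
  one_mem' := S.one_mem
  inv_mem' := fun ha => S.inv_mem ha

/-- Property (T): there is a Kazhdan pair. -/
def HasT (G : Type) [Group G] : Prop :=
  ∃ (Q : Finset G) (ε : ℝ), H885.IsKazhdanPair G Q ε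

end Vale.Agent.P092.R2.H559.St
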