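import Vale.Agent.P092.R2.H559.Defs

/-!
The action of `Sp_{2n}(ℤ)` on `A^{2n}` for an abelian group `A`, the pairing `ω : ℤ^{2n} × A^{2n} → A`,
and the theta cocycle.
-/

namespace Vale.Agent.P092.R2.H559

open Matrix

section mact

variable {n : ℕ} {A B : Type} [AddCommGroup A] [AddCommGroup B]

/-- The action of an integral matrix on `A^{2n}`. -/
def mact (M : Matrix (Fin n ⊕ Fin n) (Fin n ⊕ Fin n) ℤ) (x : Fin n ⊕ Fin n → A) :
    Fin n ⊕ Fin n → A := fun i => ∑ j, M i j • x j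

theorem mact_one (x : Fin n ⊕ Fin n → A) : mact 1 x = x := by
  funext i
  simp only [mact, Matrix.one_apply, ite_smul, one_smul, zero_smul, Finset.sum_ite_eq,
    Finset.mem_univ, if_true]

theorem mact_mul (M N : Matrix (Fin n ⊕ Fin n) (Fin n ⊕ Fin n) ℤ) (x : Fin n ⊕ Fin n → A) :
    mact (M * N) x = mact M (mact N x) := by
  funext i
  simp only [mact, Matrix.mul_apply, Finset.sum_smul, Finset.smul_sum, mul_smul]
  exact Finset.sum_comm

theorem mact_add (M : Matrix (Fin n ⊕ Fin n) (Fin n ⊕ Fin n) ℤ) (x y : Fin n ⊕ Fin n → A) :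
    mact M (x + y) = mact M x + mact M y := by
  funext i
  simp only [mact, Pi.add_apply, smul_add, Finset.sum_add_distrib]

theorem mact_int (M : Matrix (Fin n ⊕ Fin n) (Fin n ⊕ Fin n) ℤ) (x : Fin n ⊕ Fin n → ℤ) :
    mact M x = M *ᵥ x := by
  funext i
  simp only [mact, mulVec, dotProduct, smul_eq_mul]

theorem map_mact (f : A →+ B) (M : Matrix (Fin n ⊕ Fin n) (Fin n ⊕ Fin n) ℤ)
    (x : Fin n ⊕ Fin n → A) : (fun i => f (mact M x i)) = mact M fun i => f (x i) := by
  funext i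
  simp only [mact, map_sum, map_zsmul]

/-- `rot u ⬝ m = ω(u, m)`. -/
def rot (u : Lat n) : Lat n := Sum.elim (fun i => -u (Sum.inr i)) fun i => u (Sum.inl i)

theorem rot_add (u v : Lat n) : rot (u + v) = rot u + rot v := by
  funext i
  rcases i with i | i
  · simp only [rot, Sum.elim_inl, Pi.add_apply]; ring
  · simp only [rot, Sum.elim_inr, Pi.add_apply]

theorem rot_zero : rot (0 : Lat n) = 0 := by
  funext i
  rcases i with i | i <;> simp [rot]

theorem rot_rot (u : Lat n) : rot (rot u) = -u := by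
  funext i
  rcases i with i | i <;> simp [rot]

theorem rot_neg (u : Lat n) : rot (-u) = -rot u := by
  funext i
  rcases i with i | i <;> simp [rot]

theorem rot_eq_zero {u : Lat n} (h : rot u = 0) : u = 0 := by
  have := rot_rot u
  rw [h, rot_zero] at this
  exact neg_eq_zero.mp this.symm

/-- The pairing `ω : ℤ^{2n} × A^{2n} → A`. -/
def omA (u : Lat n) (x : Fin n ⊕ Fin n → A) : A := ∑ j, rot u j • x j

theorem omA_int (u m : Lat n) : omA u m = om u m := by
  simp only [omA, om, Fintype.sum_sum_type, rot, Sum.elim_inl, Sum.elim_inr, smul_eq_mul,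
    Finset.sum_sub_distrib, neg_mul, Finset.sum_neg_distrib]
  ring

theorem omA_add_left (u v : Lat n) (x : Fin n ⊕ Fin n → A) :
    omA (u + v) x = omA u x + omA v x := by
  simp only [omA, rot_add, Pi.add_apply, add_smul, Finset.sum_add_distrib]

theorem omA_add_right (u : Lat n) (x y : Fin n ⊕ Fin n → A) :
    omA u (x + y) = omA u x + omA u y := by
  simp only [omA, Pi.add_apply, smul_add, Finset.sum_add_distrib]

theorem omA_zero_left (x : Fin n ⊕ Fin n → A) : omA (0 : Lat n) x = 0 := by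
  simp only [omA, rot_zero, Pi.zero_apply, zero_smul, Finset.sum_const_zero]

theorem map_omA (f : A →+ B) (u : Lat n) (x : Fin n ⊕ Fin n → A) :
    f (omA u x) = omA u fun i => f (x i) := by
  simp only [omA, map_sum, map_zsmul]

theorem om_single (u : Lat n) (j : Fin n ⊕ Fin n) : om u (Pi.single j 1) = rot u j := by
  rw [← omA_int, omA]
  simp only [Pi.single_apply, smul_eq_mul, mul_ite, mul_one, mul_zero, Finset.sum_ite_eq',
    Finset.mem_univ, if_true]

theorem omA_act (g : Sp n) (u : Lat n) (x : Fin n ⊕ Fin n → A) :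
    omA (mt g *ᵥ u) (mact (mt g) x) = omA u x := by
  have h : ∀ j, ∑ i, rot (mt g *ᵥ u) i * mt g i j = rot u j := by
    intro j
    have h1 := om_act g u (Pi.single j 1)
    rw [om_single, ← omA_int, omA] at h1
    rw [← h1]
    refine Finset.sum_congr rfl fun i _ => ?_
    rw [mulVec_single_one]
    rfl
  simp only [omA, mact, Finset.smul_sum]
  rw [Finset.sum_comm]
  refine Finset.sum_congr rfl fun j _ => ?_
  simp only [smul_smul]
  rw [← Finset.sum_smul, h]

theorem omA_act_left (g : Sp n) (u : Lat n) (x : Fin n ⊕ Fin n → A) :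
    omA (mt g *ᵥ u) x = omA u (mact (mt g⁻¹) x) := by
  have h : mact (mt g) (mact (mt g⁻¹) x) = x := by
    rw [← mact_mul, ← mt_mul, mul_inv_cancel]
    exact mact_one x
  conv_lhs => rw [← h]
  exact omA_act g u _

end mact

section theta

variable {n : ℕ}

/-- `e(t) = exp(2πit)` -/
noncomputable def ee (t : ℝ) : ℂ := Complex.exp (2 * Real.pi * Complex.I * t)

theorem ee_add (s t : ℝ) : ee (s + t) = ee s * ee t := by
  rw [ee, ee, ee, ← Complex.exp_add]
  congr 1
  push_cast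
  ring

theorem ee_zero : ee 0 = 1 := by simp [ee]

theorem norm_ee (t : ℝ) : ‖ee t‖ = 1 := by
  have : ee t = Complex.exp ((2 * Real.pi * t : ℝ) * Complex.I) := by
    rw [ee]; congr 1; push_cast; ring
  rw [this, Complex.norm_exp_ofReal_mul_I]

theorem ee_ne_zero (t : ℝ) : ee t ≠ 0 := Complex.exp_ne_zero _

theorem ee_int (k : ℤ) : ee k = 1 := by
  rw [ee]
  have : (2 * Real.pi * Complex.I * ((k : ℝ) : ℂ)) = k * (2 * Real.pi * Complex.I) := by
    push_cast; ring
  rw [this]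
  exact Complex.exp_int_mul_two_pi_mul_I k

theorem ee_half {k : ℤ} (hk : Even k) : ee ((k : ℝ) / 2) = 1 := by
  obtain ⟨m, rfl⟩ := hk
  have : (((m + m : ℤ) : ℝ) / 2) = (m : ℝ) := by push_cast; ring
  rw [this, ee_int]

theorem ee_add_int (t : ℝ) (k : ℤ) : ee (t + k) = ee t := by
  rw [ee_add, ee_int, mul_one]

/-- the integer part -/
noncomputable def fl (x : Fin n ⊕ Fin n → ℝ) : Lat n := fun i => ⌊x i⌋

/-- a vector of integers as a real vector -/
def ir (m : Lat n) : Fin n ⊕ Fin n → ℝ := fun i => (m i : ℝ)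

theorem fl_add_ir (x : Fin n ⊕ Fin n → ℝ) (m : Lat n) : fl (x + ir m) = fl x + m := by
  funext i
  simp only [fl, ir, Pi.add_apply, Int.floor_add_intCast]

theorem omA_ir (u m : Lat n) : omA u (ir m) = (om u m : ℝ) := by
  rw [← omA_int]
  exact (map_omA (Int.castAddHom ℝ) u m).symm

theorem mact_ir (M : Matrix (Fin n ⊕ Fin n) (Fin n ⊕ Fin n) ℤ) (m : Lat n) :
    mact M (ir m) = ir (M *ᵥ m) := by
  rw [← mact_int]
  exact (map_mact (Int.castAddHom ℝ) M m).symm

theorem om_self (m : Lat n) : om m m = 0 := by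
  simp only [om]
  exact Finset.sum_eq_zero fun i _ => by ring

/-- The unimodular section `F(x) = e((ω([x], x) + q([x]))/2)`. -/
noncomputable def FF (x : Fin n ⊕ Fin n → ℝ) : ℂ := ee ((omA (fl x) x + qf (fl x)) / 2)

theorem norm_FF (x : Fin n ⊕ Fin n → ℝ) : ‖FF x‖ = 1 := norm_ee _

theorem FF_add (x : Fin n ⊕ Fin n → ℝ) (m : Lat n) :
    FF (x + ir m) = FF x * ee ((omA m x + qf m) / 2) := by
  rw [FF, FF, fl_add_ir, ← ee_add]
  have h1 : ((qf (fl x + m) : ℤ) : ℝ) = qf (fl x) + qf m + om (fl x) m +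
      2 * ((∑ i, fl x (Sum.inr i) * m (Sum.inl i) : ℤ) : ℝ) := by
    rw [qf_add]; push_cast; ring
  have h2 : omA (fl x + m) (x + ir m) = omA (fl x) x + omA m x + om (fl x) m := by
    rw [omA_add_left, omA_add_right, omA_add_right, omA_ir, omA_ir, om_self]
    push_cast; ring
  rw [h1, h2]
  have h3 : (omA (fl x) x + omA m x + (om (fl x) m : ℝ) + (qf (fl x) + qf m + om (fl x) m +
      2 * ((∑ i, fl x (Sum.inr i) * m (Sum.inl i) : ℤ) : ℝ))) / 2 =
      ((omA (fl x) x + qf (fl x)) / 2 + (omA m x + qf m) / 2) +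
      ((om (fl x) m + ∑ i, fl x (Sum.inr i) * m (Sum.inl i) : ℤ) : ℝ) := by
    push_cast; ring
  rw [h3, ee_add_int]

/-- The theta cocycle `w_{(u,g)}(x) = F(x)⁻¹ e(ω(u, x)/2) F(g⁻¹ x)`. -/
noncomputable def wL (a : Gam n) (x : Fin n ⊕ Fin n → ℝ) : ℂ :=
  (FF x)⁻¹ * ee (omA (Multiplicative.toAdd a.left) x / 2) * FF (mact (mt a.right⁻¹) x)

theorem FF_ne_zero (x : Fin n ⊕ Fin n → ℝ) : FF x ≠ 0 := ee_ne_zero _

theorem norm_wL (a : Gam n) (x : Fin n ⊕ Fin n → ℝ) : ‖wL a x‖ = 1 := by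
  rw [wL, norm_mul, norm_mul, norm_inv, norm_FF, norm_ee, norm_FF]
  norm_num

theorem wL_mul (a b : Gam n) (x : Fin n ⊕ Fin n → ℝ) :
    wL (a * b) x = wL a x * wL b (mact (mt a.right⁻¹) x) := by
  have h1 : omA (Multiplicative.toAdd (a * b).left) x =
      omA (Multiplicative.toAdd a.left) x +
        omA (Multiplicative.toAdd b.left) (mact (mt a.right⁻¹) x) := by
    rw [← omA_act_left, ← omA_add_left]
    rfl
  have h2 : mact (mt (a * b).right⁻¹) x = mact (mt b.right⁻¹) (mact (mt a.right⁻¹) x) := by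
    rw [← mact_mul, ← mt_mul, ← _root_.mul_inv_rev]
    rfl
  have h3 : (omA (Multiplicative.toAdd (a * b).left) x) / 2 =
      omA (Multiplicative.toAdd a.left) x / 2 +
        omA (Multiplicative.toAdd b.left) (mact (mt a.right⁻¹) x) / 2 := by
    rw [h1]; ring
  rw [wL, h3, h2, ee_add, wL, wL]
  have h4 := FF_ne_zero (mact (mt a.right⁻¹) x)
  field_simp

theorem wL_periodic {a : Gam n} (ha : a ∈ Lam n) (x : Fin n ⊕ Fin n → ℝ) (m : Lat n) :
    wL a (x + ir m) = wL a x := by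
  rw [wL, wL, mact_add, mact_ir, FF_add, FF_add, omA_add_right, omA_ir]
  have h1 : omA (mt a.right⁻¹ *ᵥ m) (mact (mt a.right⁻¹) x) = omA m x := omA_act _ _ _
  rw [h1]
  have h2 : (omA (Multiplicative.toAdd a.left) x + (om (Multiplicative.toAdd a.left) m : ℝ)) / 2 =
      omA (Multiplicative.toAdd a.left) x / 2 + (om (Multiplicative.toAdd a.left) m : ℝ) / 2 := by
    ring
  have h3 := ha m
  have h4 : ee ((om (Multiplicative.toAdd a.left) m : ℝ) / 2) *
      ee ((omA m x + (qf (mt a.right⁻¹ *ᵥ m) : ℝ)) / 2) = ee ((omA m x + (qf m : ℝ)) / 2) := by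
    rw [← ee_add]
    have h5 : ((om (Multiplicative.toAdd a.left) m : ℝ) / 2 +
        (omA m x + (qf (mt a.right⁻¹ *ᵥ m) : ℝ)) / 2) = (omA m x + (qf m : ℝ)) / 2 +
        ((om (Multiplicative.toAdd a.left) m + qf m + qf (mt a.right⁻¹ *ᵥ m) : ℤ) : ℝ) / 2 +
        ((-qf m : ℤ) : ℝ) := by
      push_cast; ring
    rw [h5, ee_add_int, ee_add, ee_half h3, mul_one]
  rw [h2, ee_add]
  have h6 := FF_ne_zero x
  have h7 := ee_ne_zero ((omA m x + (qf m : ℝ)) / 2)
  calc (FF x * ee ((omA m x + ↑(qf m)) / 2))⁻¹ *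
        (ee (omA (Multiplicative.toAdd a.left) x / 2) *
          ee (↑(om (Multiplicative.toAdd a.left) m) / 2)) *
        (FF (mact (mt a.right⁻¹) x) * ee ((omA m x + ↑(qf (mt a.right⁻¹ *ᵥ m))) / 2))
      = (FF x * ee ((omA m x + ↑(qf m)) / 2))⁻¹ * ee (omA (Multiplicative.toAdd a.left) x / 2) *
          FF (mact (mt a.right⁻¹) x) * (ee (↑(om (Multiplicative.toAdd a.left) m) / 2) *
            ee ((omA m x + ↑(qf (mt a.right⁻¹ *ᵥ m))) / 2)) := by ring
    _ = _ := by
      rw [h4]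
      field_simp

/-- The cocycle of `Gam n`: `e(ω(u, x))`. -/
noncomputable def wG (a : Gam n) (x : Fin n ⊕ Fin n → ℝ) : ℂ :=
  ee (omA (Multiplicative.toAdd a.left) x)

theorem norm_wG (a : Gam n) (x : Fin n ⊕ Fin n → ℝ) : ‖wG a x‖ = 1 := norm_ee _

theorem wG_mul (a b : Gam n) (x : Fin n ⊕ Fin n → ℝ) :
    wG (a * b) x = wG a x * wG b (mact (mt a.right⁻¹) x) := by
  rw [wG, wG, wG, ← ee_add, ← omA_act_left, ← omA_add_left]
  rfl

theorem wG_periodic (a : Gam n) (x : Fin n ⊕ Fin n → ℝ) (m : Lat n) :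
    wG a (x + ir m) = wG a x := by
  rw [wG, wG, omA_add_right, omA_ir, ee_add_int]

end theta

end Vale.Agent.P092.R2.H559
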